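import Vale.Agent.Lib.P195.Rig.Defs
import Vale.Agent.Lib.P195.ExtShift

namespace Vale.Agent.Lib.P195.Rig

open CategoryTheory Abelian

universe u

section

variable {k : Type*} [Field k] {R : Type u} [Ring R] [Algebra k R] {n d : ℕ}
  (e : Module.Basis (Fin n) k R)

/-- Structure constants. -/
noncomputable def gam (i j l : Fin n) : k := e.repr (e i * e j) l

lemma basis_mul_eq_sum (i j : Fin n) : e i * e j = ∑ l, gam e i j l • e l :=
  (e.sum_repr _).symm

variable {V : Type u} [AddCommGroup V] [Module k V] [Module R V] [IsScalarTower k R V]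
  (b : Module.Basis (Fin d) k V)

/-- Matrices of the action of the basis of `R`. -/
noncomputable def rep (i : Fin n) : Matrix (Fin d) (Fin d) k :=
  LinearMap.toMatrix b b (Algebra.lsmul k k V (e i))

lemma rep_mul (i j : Fin n) : rep e b i * rep e b j = ∑ l, gam e i j l • rep e b l := by
  unfold rep
  rw [← LinearMap.toMatrix_mul, ← map_mul, basis_mul_eq_sum, map_sum, map_sum]
  refine Finset.sum_congr rfl fun l _ => ?_
  rw [map_smul, map_smul]

/-- A derivation-like family of endomorphisms, used to twist the square of a module. -/
structure TwData (k : Type*) [Field k] (R : Type u) [Ring R] [Algebra k R] (V : Type u)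
    [AddCommGroup V] [Module k V] [Module R V] [IsScalarTower k R V] where
  ft : R →ₗ[k] Module.End k V
  mul : ∀ (r s : R) (v : V), ft (r * s) v = r • ft s v + ft r (s • v)
  one : ft 1 = 0

/-- The underlying type of the twisted square. -/
def Tw (_D : TwData k R V) : Type u := V × V

instance (D : TwData k R V) : AddCommGroup (Tw D) := inferInstanceAs (AddCommGroup (V × V))

instance twModule (D : TwData k R V) : Module R (Tw D) where
  smul r x := (r • (show V × V from x).1 + D.ft r (show V × V from x).2, r • (show V × V from x).2)
  one_smul x := by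
    refine Prod.ext ?_ ?_
    · change (1 : R) • (show V × V from x).1 + D.ft 1 (show V × V from x).2 = _
      rw [D.one, one_smul]
      simp
    · change (1 : R) • (show V × V from x).2 = _
      rw [one_smul]
  mul_smul r s x := by
    refine Prod.ext ?_ ?_
    · change (r * s) • (show V × V from x).1 + D.ft (r * s) (show V × V from x).2 =
        r • (s • (show V × V from x).1 + D.ft s (show V × V from x).2) +
          D.ft r (s • (show V × V from x).2)
      rw [D.mul, mul_smul, smul_add, add_assoc]
    · change (r * s) • (show V × V from x).2 = r • s • (show V × V from x).2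
      rw [mul_smul]
  smul_zero r := by
    refine Prod.ext ?_ ?_
    · change r • (0 : V) + D.ft r (0 : V) = 0
      simp
    · change r • (0 : V) = 0
      simp
  smul_add r x y := by
    refine Prod.ext ?_ ?_
    · change r • ((show V × V from x).1 + (show V × V from y).1) +
          D.ft r ((show V × V from x).2 + (show V × V from y).2) =
        (r • (show V × V from x).1 + D.ft r (show V × V from x).2) +
          (r • (show V × V from y).1 + D.ft r (show V × V from y).2)
      rw [smul_add, map_add]
      abel
    · change r • ((show V × V from x).2 + (show V × V from y).2) =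
        r • (show V × V from x).2 + r • (show V × V from y).2
      rw [smul_add]
  add_smul r s x := by
    refine Prod.ext ?_ ?_
    · change (r + s) • (show V × V from x).1 + D.ft (r + s) (show V × V from x).2 =
        (r • (show V × V from x).1 + D.ft r (show V × V from x).2) +
          (s • (show V × V from x).1 + D.ft s (show V × V from x).2)
      rw [add_smul, map_add, LinearMap.add_apply]
      abel
    · change (r + s) • (show V × V from x).2 = r • (show V × V from x).2 + s • (show V × V from x).2
      rw [add_smul]
  zero_smul x := by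
    refine Prod.ext ?_ ?_
    · change (0 : R) • (show V × V from x).1 + D.ft 0 (show V × V from x).2 = 0
      simp
    · change (0 : R) • (show V × V from x).2 = 0
      simp

/-- Inclusion into the twisted square. -/
def twInl (D : TwData k R V) : V →ₗ[R] Tw D where
  toFun u := ((u, 0) : V × V)
  map_add' u v := by
    refine Prod.ext rfl ?_
    change (0 : V) = 0 + 0
    simp
  map_smul' r u := by
    refine Prod.ext ?_ ?_
    · change r • u = r • u + D.ft r (0 : V)
      simp
    · change (0 : V) = r • (0 : V)
      simp

/-- Projection from the twisted square. -/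
def twSnd (D : TwData k R V) : Tw D →ₗ[R] V where
  toFun x := (show V × V from x).2
  map_add' _ _ := rfl
  map_smul' _ _ := rfl

/-- The twisted extension. -/
noncomputable def twS (D : TwData k R V) : ShortComplex (ModuleCat.{u} R) :=
  ShortComplex.mk (X₁ := ModuleCat.of R V) (X₂ := ModuleCat.of R (Tw D)) (X₃ := ModuleCat.of R V)
    (ModuleCat.ofHom (twInl D)) (ModuleCat.ofHom (twSnd D)) (by
      ext x
      rfl)

lemma twS_shortExact (D : TwData k R V) : (twS D).ShortExact where
  exact := by
    rw [ShortComplex.ShortExact.moduleCat_exact_iff_function_exact]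
    intro x
    constructor
    · intro hx
      refine ⟨(show V × V from x).1, ?_⟩
      refine Prod.ext rfl ?_
      exact hx.symm
    · rintro ⟨u, rfl⟩
      rfl
  mono_f := (ModuleCat.mono_iff_injective _).mpr (fun u v h => congrArg Prod.fst h)
  epi_g := (ModuleCat.epi_iff_surjective _).mpr (fun v => ⟨((0, v) : V × V), rfl⟩)

/-- An extension splitting gives an inner form of the twisting family. -/
lemma exists_inner_of_ext (D : TwData k R V)
    (h : Subsingleton (Ext (ModuleCat.of R V) (ModuleCat.of R V) 1)) :
    ∃ X : V →ₗ[k] V, ∀ (r : R) (v : V), D.ft r v = r • X v - X (r • v) := by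
  obtain ⟨g, hg⟩ := exists_ext_of_subsingleton (twS_shortExact D) (ModuleCat.of R V) h
    (𝟙 (ModuleCat.of R V))
  have hG : ∀ u : V, g.hom (twInl D u) = u := fun u => by
    have := congrArg (fun φ => φ.hom u) hg
    exact this
  let G : Tw D →ₗ[R] V := g.hom
  have hG' : ∀ u : V, G (twInl D u) = u := hG
  let T : V → Tw D := fun v => ((0, v) : V × V)
  have hT_add : ∀ u v, T (u + v) = T u + T v := fun u v => by
    refine Prod.ext ?_ rfl
    change (0 : V) = 0 + 0
    simp
  have hsmul : ∀ (r : R) (v : V), r • T v = twInl D (D.ft r v) + T (r • v) := fun r v => by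
    refine Prod.ext ?_ ?_
    · change r • (0 : V) + D.ft r v = D.ft r v + 0
      simp
    · change r • v = 0 + r • v
      simp
  have hmain : ∀ (r : R) (v : V), r • G (T v) = D.ft r v + G (T (r • v)) := fun r v => by
    rw [← map_smul, hsmul, map_add, hG']
  have hone : D.ft (1 : R) = 0 := D.one
  have halg : ∀ (c : k) (v : V), D.ft (algebraMap k R c) v = 0 := fun c v => by
    rw [Algebra.algebraMap_eq_smul_one, map_smul, hone]
    simp
  let X : V →ₗ[k] V :=
    { toFun := fun v => G (T v)
      map_add' := fun u v => by rw [hT_add, map_add]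
      map_smul' := fun c v => by
        have := hmain (algebraMap k R c) v
        rw [halg, zero_add] at this
        simp only [algebraMap_smul] at this
        simpa using this.symm }
  refine ⟨X, fun r v => ?_⟩
  have := hmain r v
  change D.ft r v = r • G (T v) - G (T (r • v))
  rw [this]
  abel

lemma rigid_of_ext (h : Subsingleton (Ext (ModuleCat.of R V) (ModuleCat.of R V) 1)) :
    Rigid (gam e) (rep e b) := by
  intro f hf
  let ft : R →ₗ[k] Module.End k V := e.constr k (fun i => Matrix.toLin b b (f i))
  have hft : ∀ i, ft (e i) = Matrix.toLin b b (f i) := fun i => e.constr_basis k _ i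
  let ls : R →ₗ[k] Module.End k V := (Algebra.lsmul k k V).toLinearMap
  have hls : ∀ i, ls (e i) = Matrix.toLin b b (rep e b i) := fun i => by
    change Algebra.lsmul k k V (e i) = Matrix.toLin b b (LinearMap.toMatrix b b _)
    rw [Matrix.toLin_toMatrix]
  have key : (LinearMap.mul k R).compr₂ ft =
      (LinearMap.mul k (Module.End k V)).compl₁₂ ls ft +
        (LinearMap.mul k (Module.End k V)).compl₁₂ ft ls := by
    refine e.ext fun i => e.ext fun j => ?_
    simp only [LinearMap.compr₂_apply, LinearMap.mul_apply', LinearMap.add_apply,
      LinearMap.compl₁₂_apply]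
    rw [hft, hft, hls, hls, basis_mul_eq_sum, map_sum]
    have h1 : ∑ l, ft (gam e i j l • e l) = Matrix.toLin b b (∑ l, gam e i j l • f l) := by
      rw [map_sum]
      refine Finset.sum_congr rfl fun l _ => ?_
      rw [map_smul, map_smul, hft]
    rw [h1, ← hf i j, map_add, Matrix.toLin_mul b b b, Matrix.toLin_mul b b b]
    rfl
  have hmul : ∀ (r s : R) (v : V), ft (r * s) v = r • ft s v + ft r (s • v) := fun r s v => by
    have := congrArg (fun L => L r s v) key
    exact this
  have hone : ft 1 = 0 := by
    ext v
    have := hmul 1 1 v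
    simp only [mul_one, one_smul] at this
    simpa using this
  obtain ⟨X, hX⟩ := exists_inner_of_ext ⟨ft, hmul, hone⟩ h
  refine ⟨LinearMap.toMatrix b b X, fun i => ?_⟩
  have hi : Matrix.toLin b b (f i) = ls (e i) * X - X * ls (e i) := by
    ext1 v
    rw [← hft]
    exact hX (e i) v
  have hfi : f i = LinearMap.toMatrix b b (Matrix.toLin b b (f i)) := by
    rw [LinearMap.toMatrix_toLin]
  rw [hfi, hi, map_sub, LinearMap.toMatrix_mul, LinearMap.toMatrix_mul]
  rfl

variable {V' : Type u} [AddCommGroup V'] [Module k V'] [Module R V'] [IsScalarTower k R V']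
  (b' : Module.Basis (Fin d) k V')

lemma iso_of_conj (g : Matrix (Fin d) (Fin d) k) (hg : IsUnit g.det)
    (h : ∀ i, rep e b i * g = g * rep e b' i) : Nonempty (V' ≃ₗ[R] V) := by
  classical
  have hinv : g * g⁻¹ = 1 := Matrix.mul_nonsing_inv g hg
  have hinv' : g⁻¹ * g = 1 := Matrix.nonsing_inv_mul g hg
  let ψ : V' ≃ₗ[k] V := Matrix.toLinOfInv b' b hinv hinv'
  have hψ : ∀ v, ψ v = Matrix.toLin b' b g v := fun v => rfl
  have hcomm : ∀ i v, ψ (e i • v) = e i • ψ v := by
    intro i v
    have h1 := congrArg (Matrix.toLin b' b) (h i)
    rw [Matrix.toLin_mul b' b b, Matrix.toLin_mul b' b' b] at h1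
    have h2 := congrArg (fun L => L v) h1
    simp only [LinearMap.comp_apply] at h2
    unfold rep at h2
    rw [Matrix.toLin_toMatrix, Matrix.toLin_toMatrix] at h2
    rw [hψ, hψ]
    exact h2.symm
  have hR : ∀ (r : R) (v : V'), ψ (r • v) = r • ψ v := by
    intro r v
    conv_lhs => rw [← e.sum_repr r]
    conv_rhs => rw [← e.sum_repr r]
    rw [Finset.sum_smul, Finset.sum_smul, map_sum]
    refine Finset.sum_congr rfl fun i _ => ?_
    rw [smul_assoc, smul_assoc, map_smul, hcomm]
  exact ⟨{ toFun := ψ
           map_add' := ψ.map_add
           map_smul' := hR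
           invFun := ψ.symm
           left_inv := ψ.left_inv
           right_inv := ψ.right_inv }⟩

end

end Vale.Agent.Lib.P195.Rig
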