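import Mathlib

namespace Vale.Agent.Lib.P195.Rig

open Polynomial

/-- Generalized inverses exist over a field. -/
lemma exists_ginv {k V W : Type*} [Field k] [AddCommGroup V] [AddCommGroup W] [Module k V]
    [Module k W] (f : V →ₗ[k] W) : ∃ g : W →ₗ[k] V, ∀ x, f (g (f x)) = f x := by
  obtain ⟨g0, hg0⟩ := LinearMap.exists_rightInverse_of_surjective f.rangeRestrict
    (LinearMap.range_rangeRestrict f)
  obtain ⟨g, hg⟩ := LinearMap.exists_extend g0
  refine ⟨g, fun x => ?_⟩
  have h1 : g (f x) = g0 ⟨f x, LinearMap.mem_range_self f x⟩ := by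
    have := congrArg (fun l => l ⟨f x, LinearMap.mem_range_self f x⟩) hg
    simpa using this
  rw [h1]
  have h2 := congrArg (fun l => l ⟨f x, LinearMap.mem_range_self f x⟩) hg0
  have h3 := congrArg Subtype.val h2
  simpa using h3

/-- Lifting a `k`-linear map to `B`. -/
lemma exists_lift {k B : Type*} [Field k] [CommRing B] [Algebra k B] (π : B →ₐ[k] k)
    {u w : Type*} [Fintype u] [Fintype w] [DecidableEq u]
    (L : (u → k) →ₗ[k] (w → k)) :
    ∃ Lt : (u → B) →ₗ[B] (w → B), ∀ x v, π (Lt x v) = L (fun i => π (x i)) v := by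
  classical
  refine ⟨Matrix.toLin' ((LinearMap.toMatrix' L).map (algebraMap k B)), fun x v => ?_⟩
  have h : L (fun i => π (x i)) v = (LinearMap.toMatrix' L).mulVec (fun i => π (x i)) v := by
    rw [LinearMap.toMatrix'_mulVec]
  rw [h, Matrix.toLin'_apply]
  simp only [Matrix.mulVec, dotProduct, map_sum, map_mul, Matrix.map_apply]
  refine Finset.sum_congr rfl fun i _ => ?_
  simp

/-- Generalized inverse at a point. `D0, D1` is a complex of finite free `B`-modules whose
specialization along `π` is exact in the middle. Then `D0` has a generalized inverse up to a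
scalar `s` which does not vanish at `π`. -/
theorem exists_gen_inv {k B : Type*} [Field k] [CommRing B] [Algebra k B] (π : B →ₐ[k] k)
    {a b c : Type*} [Fintype a] [Fintype b] [Fintype c]
    [DecidableEq a] [DecidableEq b] [DecidableEq c]
    (D0 : (a → B) →ₗ[B] (b → B)) (D1 : (b → B) →ₗ[B] (c → B))
    (D0k : (a → k) →ₗ[k] (b → k)) (D1k : (b → k) →ₗ[k] (c → k))
    (h : ∀ x, D1 (D0 x) = 0)
    (h0 : ∀ x u, π (D0 x u) = D0k (fun i => π (x i)) u)
    (h1 : ∀ x u, π (D1 x u) = D1k (fun i => π (x i)) u)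
    (hex : ∀ x, D1k x = 0 → ∃ y, D0k y = x) :
    ∃ (Y : (b → B) →ₗ[B] (a → B)) (s : B), (∀ x, D0 (Y (D0 x)) = s • D0 x) ∧ π s ≠ 0 := by
  classical
  -- homotopy over `k`
  obtain ⟨g0, hg0⟩ := exists_ginv D0k
  obtain ⟨g1, hg1⟩ := exists_ginv D1k
  have hq : ∀ x, D0k (g0 (x - g1 (D1k x))) + g1 (D1k x) = x := by
    intro x
    have hy : D1k (x - g1 (D1k x)) = 0 := by
      rw [map_sub, hg1, sub_self]
    obtain ⟨z, hz⟩ := hex _ hy
    rw [← hz, hg0, hz]
    abel
  -- lifts
  obtain ⟨H1, hH1⟩ := exists_lift π (g0 ∘ₗ (LinearMap.id - g1 ∘ₗ D1k))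
  obtain ⟨H2, hH2⟩ := exists_lift π g1
  let E : (b → B) →ₗ[B] (b → B) := D0 ∘ₗ H1 + H2 ∘ₗ D1
  let G : (a → B) →ₗ[B] (a → B) := H1 ∘ₗ D0
  have hE : ∀ x u, π (E x u) = π (x u) := by
    intro x u
    have e1 : E x u = D0 (H1 x) u + H2 (D1 x) u := rfl
    rw [e1, map_add, h0, hH2]
    have e2 : (fun i => π (H1 x i)) = g0 ((fun i => π (x i)) - g1 (D1k fun i => π (x i))) := by
      funext i
      rw [hH1]
      rfl
    have e3 : (fun i => π (D1 x i)) = D1k (fun i => π (x i)) := by
      funext i
      rw [h1]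
    rw [e2, e3, ← Pi.add_apply, hq]
  have hED : ∀ x, E (D0 x) = D0 (G x) := by
    intro x
    have e1 : E (D0 x) = D0 (H1 (D0 x)) + H2 (D1 (D0 x)) := rfl
    rw [e1, h, map_zero, add_zero]
    rfl
  have hsemi : ∀ (p : B[X]) x, (aeval E p) (D0 x) = D0 ((aeval G p) x) := by
    intro p
    induction p using Polynomial.induction_on' with
    | add p q hp hq =>
      intro x
      simp only [map_add, LinearMap.add_apply, hp, hq]
    | monomial n c =>
      intro x
      have hpow : ∀ (m : ℕ) y, (E ^ m) (D0 y) = D0 ((G ^ m) y) := by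
        intro m
        induction m with
        | zero => intro y; simp
        | succ m ihm =>
          intro y
          rw [pow_succ, pow_succ, Module.End.mul_apply, Module.End.mul_apply, hED, ihm]
      simp only [aeval_monomial, Module.algebraMap_end_eq_smul_id, Module.End.mul_apply,
        LinearMap.smul_apply, LinearMap.id_apply, hpow, map_smul]
  set χ := E.charpoly with hχ
  have hcay : aeval E χ = 0 := LinearMap.aeval_self_charpoly E
  have hdec := Polynomial.divX_mul_X_add χ
  have hcay2 : aeval E χ.divX * E + algebraMap B _ (χ.coeff 0) = 0 := by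
    have := congrArg (aeval E) hdec
    rw [hcay, map_add, map_mul, aeval_X, aeval_C] at this
    exact this
  refine ⟨-(aeval G χ.divX ∘ₗ H1), χ.coeff 0, fun x => ?_, ?_⟩
  · have e1 : (aeval E χ.divX) (E (D0 x)) = - (χ.coeff 0 • D0 x) := by
      have := congrArg (fun l => l (D0 x)) hcay2
      simp only [LinearMap.add_apply, Module.End.mul_apply, Module.algebraMap_end_eq_smul_id,
        LinearMap.smul_apply, LinearMap.id_apply, LinearMap.zero_apply] at this
      exact eq_neg_of_add_eq_zero_left this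
    have e2 : E (D0 x) = D0 (H1 (D0 x)) := by
      have e1 : E (D0 x) = D0 (H1 (D0 x)) + H2 (D1 (D0 x)) := rfl
      rw [e1, h, map_zero, add_zero]
    rw [e2, hsemi] at e1
    have e3 : (-(aeval G χ.divX ∘ₗ H1)) (D0 x) = - (aeval G χ.divX) (H1 (D0 x)) := rfl
    rw [e3, map_neg, e1, neg_neg]
  · intro hs
    have hdet : LinearMap.det E = (-1) ^ Module.finrank B (b → B) * χ.coeff 0 :=
      LinearMap.det_eq_sign_charpoly_coeff E
    have hone : (LinearMap.toMatrix' E).map π = 1 := by
      ext u v
      rw [Matrix.map_apply, LinearMap.toMatrix'_apply, hE]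
      by_cases huv : u = v
      · subst huv
        simp
      · simp [huv, Matrix.one_apply_ne]
    have hd1 : π (LinearMap.det E) = 1 := by
      rw [← LinearMap.det_toMatrix', π.map_det]
      have : π.mapMatrix (LinearMap.toMatrix' E) = 1 := hone
      rw [this, Matrix.det_one]
    rw [hdet, map_mul, hs, mul_zero] at hd1
    exact zero_ne_one hd1

end Vale.Agent.Lib.P195.Rig
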