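import Vale.Agent.Lib.P195.Rig.Family
import Vale.Agent.Lib.P195.Res

namespace Vale.Agent.Lib.P195.Rig

open CategoryTheory Abelian

universe u v

/-- A syzygy with `Ext¹` into the next syzygy vanishing is projective. -/
lemma proj_of_ext_one {R : Type u} [Ring R] (r : Vale.Agent.Lib.P195.Res R) (a : ℕ)
    (h : Subsingleton (Ext (r.N a) (r.N (a + 1)) 1)) : Module.Projective R (r.N a) := by
  obtain ⟨g, hg⟩ := r.exists_ext_of_ext_one h LinearMap.id
  have tfae := (r.exact a).split_tfae (r.inj a) (r.surj a)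
  have hl : ∃ l, l ∘ₗ r.i a = LinearMap.id := ⟨g, hg⟩
  obtain ⟨s, hs⟩ := (tfae.out 1 0).mp hl
  have := r.proj a
  exact Module.Projective.of_split s (r.π a) hs

/-- Vanishing of `Ext` is invariant under isomorphism in the second variable. -/
lemma ext_subsingleton_of_iso {R : Type u} [Ring R] {X Y Y' : ModuleCat.{u} R} (i : Y ≅ Y') (n : ℕ)
    (h : Subsingleton (Ext X Y n)) : Subsingleton (Ext X Y' n) := by
  refine ⟨fun a b => ?_⟩
  have key : ∀ x : Ext X Y' n, x = 0 := by
    intro x
    have hid : 𝟙 Y' = i.inv ≫ i.hom := by simp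
    rw [← Ext.comp_mk₀_id x, hid, ← Ext.mk₀_comp_mk₀, ← Ext.comp_assoc_of_third_deg_zero,
      Subsingleton.elim (x.comp (Ext.mk₀ i.inv) (add_zero n)) 0, Ext.zero_comp]
  rw [key a, key b]

/-- Under condition (AR), if two different syzygies in a minimal resolution are isomorphic then the
module is projective. No finiteness hypothesis on the ring is used here. -/
theorem proj_of_iso {R : Type u} [Ring R] (r : Vale.Agent.Lib.P195.Res R)
    (hM : ∀ i : ℕ, 1 ≤ i → Subsingleton (Ext (r.N 0) (r.N 0) i))
    (hR : ∀ i : ℕ, 1 ≤ i → Subsingleton (Ext (r.N 0) (ModuleCat.of R R) i))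
    {a b : ℕ} (hab : a < b) (e : Nonempty (r.N a ≃ₗ[R] r.N b)) :
    Module.Projective R (r.N 0) := by
  obtain ⟨e'⟩ := e
  obtain ⟨c, rfl⟩ : ∃ c, b = c + 1 := ⟨b - 1, by omega⟩
  -- vanishing of `Ext` from `N 0` to `N b` in degrees above `b`
  have h1 : Subsingleton (Ext (r.N 0) (r.N a) (c + (0 + 1))) :=
    r.ext_right (c + (0 + 1)) (fun c' h _ => hM c' h) (fun c' h _ => hR c' h) a _ (by omega)
      (by omega) (by omega)
  -- hence a self-extension vanishing at the higher syzygy
  have h2 : Subsingleton (Ext (r.N 0) (r.N (c + 1)) (c + (0 + 1))) :=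
    ext_subsingleton_of_iso e'.toModuleIso _ h1
  have h3 : Subsingleton (Ext (r.N c) (r.N (c + 1)) 1) := r.ext_left _ c 0 h2
  have h4 : Module.Projective R (r.N c) := proj_of_ext_one r c h3
  -- descent along the resolution
  have desc : ∀ a : ℕ, Module.Projective R (r.N (a + 1)) → Module.Projective R (r.N a) := by
    intro a hP
    have := hP
    have := r.finN (a + 1)
    have h5 : Subsingleton (Ext (r.N a) (ModuleCat.of R R) (0 + 1)) :=
      r.ext_left _ a 0 (hR (a + (0 + 1)) (by omega))
    exact proj_of_ext_one r a (ext_subsingleton_proj (r.N a) (r.N (a + 1)) 1 h5)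
  have down : ∀ c : ℕ, Module.Projective R (r.N c) → Module.Projective R (r.N 0) := by
    intro c
    induction c with
    | zero => exact id
    | succ c ih => exact fun h => ih (desc c h)
  exact down c h4

/-- The Auslander-Reiten conjecture for modules with infinitely many syzygies generated by a
bounded number of elements, over any finite-dimensional algebra over a field. -/
theorem ar_of_bounded {k : Type v} [Field k] {R : Type u} [Ring R] [Algebra k R]
    [FiniteDimensional k R] (r : Vale.Agent.Lib.P195.Res R)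
    (hM : ∀ i : ℕ, 1 ≤ i → Subsingleton (Ext (r.N 0) (r.N 0) i))
    (hR : ∀ i : ℕ, 1 ≤ i → Subsingleton (Ext (r.N 0) (ModuleCat.of R R) i))
    (B : ℕ) (hB : ∀ a₀, ∃ a, a₀ ≤ a ∧ ∃ f : (Fin B → R) →ₗ[R] r.N a, Function.Surjective f) :
    Module.Projective R (r.N 0) := by
  classical
  -- the infinite index type
  let S : Set ℕ := {a | ∃ f : (Fin B → R) →ₗ[R] r.N a, Function.Surjective f}
  have hS : S.Infinite := by
    refine Set.infinite_of_not_bddAbove ?_
    rintro ⟨m, hm⟩
    obtain ⟨a, ha, hf⟩ := hB (m + 1)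
    have := hm hf
    omega
  have : Infinite S := hS.to_subtype
  have hrig : ∀ z : S, Subsingleton (Ext (r.N z.1) (r.N z.1) 1) := by
    intro z
    exact r.ext_left (r.N z.1) z.1 0
      (r.ext_right (z.1 + (0 + 1)) (fun c' h _ => hM c' h) (fun c' h _ => hR c' h) z.1 _ (by omega)
        (by omega) (by omega))
  obtain ⟨z, z', hne, ⟨e⟩⟩ := exists_iso_of_infinite (k := k) (fun z : S => r.N z.1) B
    (fun z => z.2) hrig
  -- two different syzygies are isomorphic
  have hne' : z.1 ≠ z'.1 := fun h => hne (Subtype.ext h)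
  rcases lt_or_gt_of_ne hne' with h | h
  · exact proj_of_iso r hM hR h ⟨e.symm⟩
  · exact proj_of_iso r hM hR h ⟨e⟩

end Vale.Agent.Lib.P195.Rig
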