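import Mathlib

namespace Vale.Agent.Lib.P195.Rig

universe u

/-- `V` is a finite direct sum of modules each generated by at most `B` elements. -/
def IsBoundedSum {R : Type u} [Ring R] (B : ℕ) (V : ModuleCat.{u} R) : Prop :=
  ∃ (n : ℕ) (X : Fin n → ModuleCat.{u} R),
    (∀ l, ∃ f : (Fin B → R) →ₗ[R] X l, Function.Surjective f) ∧ Nonempty (V ≃ₗ[R] (∀ l, X l))

end Vale.Agent.Lib.P195.Rig
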