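import Vale.Agent.Lib.P195.Rig.AR
import Vale.Agent.Lib.P195.Rig.SumDefs

namespace Vale.Agent.Lib.P195.Rig

open CategoryTheory Abelian

universe u v

section Retract

variable {R : Type u} [Ring R]

/-- Vanishing of `Ext` passes to direct summands in the second variable. -/
lemma ext_retract_right {X Y Y' : ModuleCat.{u} R} (i : Y' ⟶ Y) (p : Y ⟶ Y') (h : i ≫ p = 𝟙 Y')
    (c : ℕ) (hs : Subsingleton (Ext X Y c)) : Subsingleton (Ext X Y' c) := by
  refine ⟨fun a b => ?_⟩
  have key : ∀ x : Ext X Y' c, x = 0 := by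
    intro x
    rw [← Ext.comp_mk₀_id x, ← h, ← Ext.mk₀_comp_mk₀, ← Ext.comp_assoc_of_third_deg_zero,
      Subsingleton.elim (x.comp (Ext.mk₀ i) (add_zero c)) 0, Ext.zero_comp]
  rw [key a, key b]

/-- Vanishing of `Ext` passes to direct summands in the first variable. -/
lemma ext_retract_left {X X' Y : ModuleCat.{u} R} (i : X' ⟶ X) (p : X ⟶ X') (h : i ≫ p = 𝟙 X')
    (c : ℕ) (hs : Subsingleton (Ext X Y c)) : Subsingleton (Ext X' Y c) := by
  refine ⟨fun a b => ?_⟩
  have key : ∀ x : Ext X' Y c, x = 0 := by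
    intro x
    have h1 : x = (Ext.mk₀ i).comp ((Ext.mk₀ p).comp x (zero_add c)) (zero_add c) := by
      rw [← Ext.comp_assoc_of_second_deg_zero, Ext.mk₀_comp_mk₀, h, Ext.mk₀_id_comp]
    rw [h1, Subsingleton.elim ((Ext.mk₀ p).comp x (zero_add c)) 0, Ext.comp_zero]
  rw [key a, key b]

/-- Vanishing of `Ext` into a finite direct sum. -/
lemma ext_pi {n : ℕ} (Z V : ModuleCat.{u} R) (X : Fin n → ModuleCat.{u} R)
    (e : V ≃ₗ[R] (∀ l, X l)) (c : ℕ) (h : ∀ l, Subsingleton (Ext Z (X l) c)) :
    Subsingleton (Ext Z V c) := by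
  classical
  refine ⟨fun a b => ?_⟩
  have key : ∀ x : Ext Z V c, x = 0 := by
    intro x
    have hid : 𝟙 V = ∑ l : Fin n,
        ModuleCat.ofHom ((LinearMap.proj l : (∀ l, X l) →ₗ[R] X l).comp e.toLinearMap) ≫
          ModuleCat.ofHom (e.symm.toLinearMap.comp (LinearMap.single R (fun l => X l) l)) := by
      ext v
      apply e.injective
      simp only [ModuleCat.hom_sum, ModuleCat.hom_comp, ModuleCat.hom_ofHom, ModuleCat.hom_id,
        LinearMap.sum_apply, LinearMap.comp_apply, LinearEquiv.coe_coe, map_sum,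
        LinearEquiv.apply_symm_apply, LinearMap.id_apply]
      funext l'
      simp [Finset.sum_apply]
    rw [← Ext.comp_mk₀_id x, hid, Ext.mk₀_sum, Ext.comp_sum]
    refine Finset.sum_eq_zero fun l _ => ?_
    rw [← Ext.mk₀_comp_mk₀, ← Ext.comp_assoc_of_third_deg_zero]
    have := h l
    rw [Subsingleton.elim (x.comp (Ext.mk₀ _) (add_zero c)) 0, Ext.zero_comp]
  rw [key a, key b]

/-- The components of a finite direct sum are direct summands. -/
lemma pi_retract {n : ℕ} (V : ModuleCat.{u} R) (X : Fin n → ModuleCat.{u} R)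
    (e : V ≃ₗ[R] (∀ l, X l)) (l : Fin n) :
    ∃ (i : X l ⟶ V) (p : V ⟶ X l), i ≫ p = 𝟙 (X l) := by
  classical
  refine ⟨ModuleCat.ofHom (e.symm.toLinearMap.comp (LinearMap.single R (fun l => X l) l)),
    ModuleCat.ofHom ((LinearMap.proj l : (∀ l, X l) →ₗ[R] X l).comp e.toLinearMap), ?_⟩
  ext v
  simp

end Retract

variable {R : Type u} [Ring R]

/-- `Ext^b (N 0, N b) = 0` forces projectivity, under the vanishing of `Ext (N 0, R)` up to `b`. -/
theorem proj_of_self_ext (r : Vale.Agent.Lib.P195.Res R) {b : ℕ} (hb : 1 ≤ b)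
    (hR : ∀ i : ℕ, 1 ≤ i → i ≤ b → Subsingleton (Ext (r.N 0) (ModuleCat.of R R) i))
    (h : Subsingleton (Ext (r.N 0) (r.N b) b)) :
    Module.Projective R (r.N 0) := by
  obtain ⟨c, rfl⟩ : ∃ c, b = c + 1 := ⟨b - 1, by omega⟩
  have h3 : Subsingleton (Ext (r.N c) (r.N (c + 1)) 1) := r.ext_left _ c 0 h
  have h4 : Module.Projective R (r.N c) := proj_of_ext_one r c h3
  have desc : ∀ a : ℕ, a ≤ c → Module.Projective R (r.N (a + 1)) → Module.Projective R (r.N a) := by
    intro a hac hP
    have := hP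
    have := r.finN (a + 1)
    have h5 : Subsingleton (Ext (r.N a) (ModuleCat.of R R) (0 + 1)) :=
      r.ext_left _ a 0 (hR (a + (0 + 1)) (by omega) (by omega))
    exact proj_of_ext_one r a (ext_subsingleton_proj (r.N a) (r.N (a + 1)) 1 h5)
  have down : ∀ c' : ℕ, c' ≤ c → Module.Projective R (r.N c') → Module.Projective R (r.N 0) := by
    intro c'
    induction c' with
    | zero => exact fun _ => id
    | succ c' ih => exact fun hc h => ih (by omega) (desc c' (by omega) h)
  exact down c (le_refl _) h4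

/-- Under condition (AR) up to degree `m`, if `N b` (with `1 ≤ b ≤ m`) is a finite direct sum of
modules each of which is a direct summand of an earlier syzygy, then the module is projective. So in
a counterexample every syzygy contains a new summand. No finiteness hypothesis on the ring. -/
theorem proj_of_summands (r : Vale.Agent.Lib.P195.Res R) (m : ℕ)
    (hM : ∀ i : ℕ, 1 ≤ i → i ≤ m → Subsingleton (Ext (r.N 0) (r.N 0) i))
    (hR : ∀ i : ℕ, 1 ≤ i → i ≤ m + 1 → Subsingleton (Ext (r.N 0) (ModuleCat.of R R) i))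
    {b n : ℕ} (hb : 1 ≤ b) (hbm : b ≤ m) (X : Fin n → ModuleCat.{u} R)
    (e : r.N b ≃ₗ[R] (∀ l, X l))
    (hsum : ∀ l, ∃ a, a < b ∧ ∃ (i : X l ⟶ r.N a) (p : r.N a ⟶ X l), i ≫ p = 𝟙 (X l)) :
    Module.Projective R (r.N 0) := by
  refine proj_of_self_ext r hb (fun i h1 h2 => hR i h1 (by omega))
    (ext_pi (r.N 0) (r.N b) X e b fun l => ?_)
  obtain ⟨a, hab, i, p, hip⟩ := hsum l
  refine ext_retract_right i p hip b ?_
  exact r.ext_right m hM hR a b (by omega) (by omega) (by omega)

/-- Modules with at most `B` generators and no self-extensions. -/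
def RigB (R : Type u) [Ring R] (B : ℕ) : Type (u + 1) :=
  {X : ModuleCat.{u} R // (∃ f : (Fin B → R) →ₗ[R] X, Function.Surjective f) ∧
    Subsingleton (Ext X X 1)}

/-- Isomorphism of such modules. -/
def rigSetoid (R : Type u) [Ring R] (B : ℕ) : Setoid (RigB R B) where
  r X Y := Nonempty (X.1 ≃ₗ[R] Y.1)
  iseqv := ⟨fun _ => ⟨LinearEquiv.refl _ _⟩, fun ⟨e⟩ => ⟨e.symm⟩, fun ⟨e⟩ ⟨e'⟩ => ⟨e.trans e'⟩⟩

/-- Over a finite-dimensional algebra over a field there are finitely many isomorphism types of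
modules with at most `B` generators and no self-extensions. -/
theorem finite_rigid_types (k : Type v) [Field k] (R : Type u) [Ring R] [Algebra k R]
    [FiniteDimensional k R] (B : ℕ) : Finite (Quotient (rigSetoid R B)) := by
  by_contra h
  rw [not_finite_iff_infinite] at h
  obtain ⟨z, z', hne, ⟨e⟩⟩ := exists_iso_of_infinite (k := k)
    (fun t : Quotient (rigSetoid R B) => t.out.1) B (fun t => t.out.2.1) (fun t => t.out.2.2)
  apply hne
  have h1 : (Quotient.mk (rigSetoid R B) z'.out) = Quotient.mk (rigSetoid R B) z.out :=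
    Quotient.sound ⟨e⟩
  rw [Quotient.out_eq, Quotient.out_eq] at h1
  exact h1.symm

/-- Uniform finite-range form of the Auslander-Reiten conjecture: given the algebra and `B` there is
`K` such that if more than `K` of the syzygies `N a`, `a < m`, are finite direct sums of modules with
at most `B` generators and the vanishing holds up to degree `m + 1`, then the module is projective. -/
theorem ar_range (k : Type v) [Field k] (R : Type u) [Ring R] [Algebra k R]
    [FiniteDimensional k R] (B : ℕ) :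
    ∃ K : ℕ, ∀ (r : Vale.Agent.Lib.P195.Res R) (m : ℕ) (A : Finset ℕ), K < A.card →
      (∀ a ∈ A, a < m ∧ IsBoundedSum B (r.N a)) →
      (∀ i : ℕ, 1 ≤ i → i ≤ m → Subsingleton (Ext (r.N 0) (r.N 0) i)) →
      (∀ i : ℕ, 1 ≤ i → i ≤ m + 1 → Subsingleton (Ext (r.N 0) (ModuleCat.of R R) i)) →
      Module.Projective R (r.N 0) := by
  classical
  have hfin := finite_rigid_types k R B
  refine ⟨Nat.card (Set (Quotient (rigSetoid R B))), ?_⟩
  intro r m A hA hbd hM hR
  -- rigidity of the syzygies below `m`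
  have hrigN : ∀ a : ℕ, a < m → Subsingleton (Ext (r.N a) (r.N a) 1) := by
    intro a ham
    exact r.ext_left (r.N a) a 0 (r.ext_right m hM hR a _ (by omega) (by omega) (by omega))
  -- the decompositions
  have hdata : ∀ a : A, ∃ (n : ℕ) (X : Fin n → RigB R B),
      Nonempty (r.N a.1 ≃ₗ[R] (∀ l, (X l).1)) := by
    rintro ⟨a, ha⟩
    obtain ⟨ham, n, X, hgen, ⟨e⟩⟩ := hbd a ha
    refine ⟨n, fun l => ⟨X l, hgen l, ?_⟩, ⟨e⟩⟩
    obtain ⟨i, p, hip⟩ := pi_retract (r.N a) X e l
    have h1 := ext_retract_left i p hip 1 (hrigN a ham)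
    exact ext_retract_right i p hip 1 h1
  choose n X e using hdata
  -- the support of a decomposition
  let supp : A → Set (Quotient (rigSetoid R B)) :=
    fun a => Set.range fun l => Quotient.mk (rigSetoid R B) (X a l)
  have hninj : ¬ Function.Injective supp := by
    intro hinj
    have h1 := Nat.card_le_card_of_injective supp hinj
    rw [Nat.card_eq_fintype_card, Fintype.card_coe] at h1
    omega
  rw [Function.not_injective_iff] at hninj
  obtain ⟨a, a', hsupp, hne⟩ := hninj
  have key : ∀ a b : A, a.1 < b.1 → supp a = supp b → Module.Projective R (r.N 0) := by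
    intro a b hab hs
    obtain ⟨e'⟩ := e b
    have hbm : b.1 < m := (hbd b.1 b.2).1
    refine proj_of_summands r m hM hR (b := b.1) (by omega) (by omega) (fun l => (X b l).1) e'
      fun l => ?_
    have hmem : Quotient.mk (rigSetoid R B) (X b l) ∈ supp a := by
      rw [hs]
      exact ⟨l, rfl⟩
    obtain ⟨l', hl'⟩ := hmem
    obtain ⟨f⟩ : Nonempty ((X a l').1 ≃ₗ[R] (X b l).1) := Quotient.exact hl'
    obtain ⟨e''⟩ := e a
    obtain ⟨i, p, hip⟩ := pi_retract (r.N a.1) (fun l => (X a l).1) e'' l'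
    refine ⟨a.1, hab, ModuleCat.ofHom f.symm.toLinearMap ≫ i,
      p ≫ ModuleCat.ofHom f.toLinearMap, ?_⟩
    have : (ModuleCat.ofHom f.symm.toLinearMap ≫ i) ≫ (p ≫ ModuleCat.ofHom f.toLinearMap) =
        ModuleCat.ofHom f.symm.toLinearMap ≫ (i ≫ p) ≫ ModuleCat.ofHom f.toLinearMap := by
      simp only [Category.assoc]
    rw [this, hip]
    ext v
    simp
  have hne' : a.1 ≠ a'.1 := fun h => hne (Subtype.ext h)
  rcases lt_or_gt_of_ne hne' with h | h
  · exact key a a' h hsupp
  · exact key a' a h hsupp.symm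

/-- The Auslander-Reiten conjecture for modules such that infinitely many syzygies are finite direct
sums of modules generated by a bounded number of elements, over any finite-dimensional algebra over
a field. So in a counterexample the number of generators of the largest indecomposable summand of
the syzygy tends to infinity. -/
theorem ar_of_bounded_sum {k : Type v} [Field k] {R : Type u} [Ring R] [Algebra k R]
    [FiniteDimensional k R] (r : Vale.Agent.Lib.P195.Res R)
    (hM : ∀ i : ℕ, 1 ≤ i → Subsingleton (Ext (r.N 0) (r.N 0) i))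
    (hR : ∀ i : ℕ, 1 ≤ i → Subsingleton (Ext (r.N 0) (ModuleCat.of R R) i))
    (B : ℕ) (hB : ∀ a₀, ∃ a, a₀ ≤ a ∧ IsBoundedSum B (r.N a)) :
    Module.Projective R (r.N 0) := by
  obtain ⟨K, hK⟩ := ar_range k R B
  let S : Set ℕ := {a | IsBoundedSum B (r.N a)}
  have hS : S.Infinite := by
    refine Set.infinite_of_not_bddAbove ?_
    rintro ⟨m, hm⟩
    obtain ⟨a, ha, hf⟩ := hB (m + 1)
    have := hm hf
    omega
  obtain ⟨A, hAS, hcard⟩ := hS.exists_subset_card_eq (K + 1)
  refine hK r (A.sup id + 1) A (by omega) (fun a ha => ⟨?_, hAS ha⟩) (fun i h1 _ => hM i h1)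
    (fun i h1 _ => hR i h1)
  have : a ≤ A.sup id := Finset.le_sup (f := id) ha
  omega

/-- Bounded syzygies are bounded sums. -/
lemma isBoundedSum_of_surjective {B : ℕ} {V : ModuleCat.{u} R}
    (h : ∃ f : (Fin B → R) →ₗ[R] V, Function.Surjective f) : IsBoundedSum B V :=
  ⟨1, fun _ => V, fun _ => h, ⟨(LinearEquiv.funUnique (Fin 1) R V).symm⟩⟩

end Vale.Agent.Lib.P195.Rig
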