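import Vale.Agent.Lib.P195.Rig.Defs
import Vale.Agent.Lib.P195.Rig.GenInv

namespace Vale.Agent.Lib.P195.Rig

section

variable {R : Type*} [CommRing R] {n d : ℕ}

/-- Reading a vector indexed by pairs as a matrix. -/
def cur (x : Fin d × Fin d → R) : Matrix (Fin d) (Fin d) R := Matrix.of fun p q => x (p, q)

lemma cur_add (x y : Fin d × Fin d → R) : cur (x + y) = cur x + cur y := rfl

lemma cur_smul (r : R) (x : Fin d × Fin d → R) : cur (r • x) = r • cur x := rfl

/-- The `i`-th matrix of a family written as a vector. -/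
def sl (f : Fin n × (Fin d × Fin d) → R) (i : Fin n) : Matrix (Fin d) (Fin d) R :=
  cur (fun p => f (i, p))

lemma sl_add (f h : Fin n × (Fin d × Fin d) → R) (i : Fin n) :
    sl (f + h) i = sl f i + sl h i := rfl

lemma sl_smul (r : R) (f : Fin n × (Fin d × Fin d) → R) (i : Fin n) :
    sl (r • f) i = r • sl f i := rfl

/-- The coboundary `X ↦ (A i X - X C i)`. -/
def D0f (A C : Fin n → Matrix (Fin d) (Fin d) R) :
    (Fin d × Fin d → R) →ₗ[R] (Fin n × (Fin d × Fin d) → R) where
  toFun x u := (A u.1 * cur x - cur x * C u.1) u.2.1 u.2.2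
  map_add' x y := by
    funext u
    have : A u.1 * cur (x + y) - cur (x + y) * C u.1
        = (A u.1 * cur x - cur x * C u.1) + (A u.1 * cur y - cur y * C u.1) := by
      rw [cur_add, Matrix.mul_add, Matrix.add_mul]; abel
    simp only [this, Matrix.add_apply, Pi.add_apply]
  map_smul' r x := by
    funext u
    have : A u.1 * cur (r • x) - cur (r • x) * C u.1
        = r • (A u.1 * cur x - cur x * C u.1) := by
      rw [cur_smul, Matrix.mul_smul, Matrix.smul_mul, smul_sub]
    simp only [this, Matrix.smul_apply, Pi.smul_apply, RingHom.id_apply]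

lemma D0f_apply (A C : Fin n → Matrix (Fin d) (Fin d) R) (x : Fin d × Fin d → R)
    (u : Fin n × (Fin d × Fin d)) :
    D0f A C x u = (A u.1 * cur x - cur x * C u.1) u.2.1 u.2.2 := rfl

lemma sl_D0f (A C : Fin n → Matrix (Fin d) (Fin d) R) (x : Fin d × Fin d → R) (i : Fin n) :
    sl (D0f A C x) i = A i * cur x - cur x * C i := by
  ext p q; rfl

/-- The coboundary `f ↦ (A i f j + f i C j - ∑ γ f l)`. -/
def D1f (γ : Fin n → Fin n → Fin n → R) (A C : Fin n → Matrix (Fin d) (Fin d) R) :
    (Fin n × (Fin d × Fin d) → R) →ₗ[R] (Fin n × Fin n × (Fin d × Fin d) → R) where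
  toFun f u := (A u.1 * sl f u.2.1 + sl f u.1 * C u.2.1 - ∑ l, γ u.1 u.2.1 l • sl f l) u.2.2.1 u.2.2.2
  map_add' f h := by
    funext u
    have : A u.1 * sl (f + h) u.2.1 + sl (f + h) u.1 * C u.2.1 - ∑ l, γ u.1 u.2.1 l • sl (f + h) l
        = (A u.1 * sl f u.2.1 + sl f u.1 * C u.2.1 - ∑ l, γ u.1 u.2.1 l • sl f l)
          + (A u.1 * sl h u.2.1 + sl h u.1 * C u.2.1 - ∑ l, γ u.1 u.2.1 l • sl h l) := by
      simp only [sl_add, Matrix.mul_add, Matrix.add_mul, smul_add, Finset.sum_add_distrib]
      abel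
    simp only [this, Matrix.add_apply, Pi.add_apply]
  map_smul' r f := by
    funext u
    have : A u.1 * sl (r • f) u.2.1 + sl (r • f) u.1 * C u.2.1 - ∑ l, γ u.1 u.2.1 l • sl (r • f) l
        = r • (A u.1 * sl f u.2.1 + sl f u.1 * C u.2.1 - ∑ l, γ u.1 u.2.1 l • sl f l) := by
      simp only [sl_smul, Matrix.mul_smul, Matrix.smul_mul, smul_sub, smul_add, Finset.smul_sum]
      congr 1
      exact Finset.sum_congr rfl fun l _ => smul_comm _ _ _
    simp only [this, Matrix.smul_apply, Pi.smul_apply, RingHom.id_apply]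

lemma D1f_apply (γ : Fin n → Fin n → Fin n → R) (A C : Fin n → Matrix (Fin d) (Fin d) R)
    (f : Fin n × (Fin d × Fin d) → R) (u : Fin n × Fin n × (Fin d × Fin d)) :
    D1f γ A C f u
      = (A u.1 * sl f u.2.1 + sl f u.1 * C u.2.1 - ∑ l, γ u.1 u.2.1 l • sl f l) u.2.2.1 u.2.2.2 :=
  rfl

lemma D1f_D0f (γ : Fin n → Fin n → Fin n → R) (A C : Fin n → Matrix (Fin d) (Fin d) R)
    (hA : ∀ i j, A i * A j = ∑ l, γ i j l • A l) (hC : ∀ i j, C i * C j = ∑ l, γ i j l • C l)
    (x : Fin d × Fin d → R) : D1f γ A C (D0f A C x) = 0 := by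
  funext u
  rw [D1f_apply]
  have : A u.1 * sl (D0f A C x) u.2.1 + sl (D0f A C x) u.1 * C u.2.1
        - ∑ l, γ u.1 u.2.1 l • sl (D0f A C x) l = 0 := by
    simp only [sl_D0f]
    have e1 : A u.1 * (A u.2.1 * cur x - cur x * C u.2.1)
        + (A u.1 * cur x - cur x * C u.1) * C u.2.1
        = (A u.1 * A u.2.1) * cur x - cur x * (C u.1 * C u.2.1) := by
      simp only [Matrix.mul_sub, Matrix.sub_mul, Matrix.mul_assoc]
      abel
    rw [e1, hA, hC, Finset.sum_mul, Finset.mul_sum]
    simp only [Matrix.smul_mul, Matrix.mul_smul, smul_sub, Finset.sum_sub_distrib]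
    abel
  rw [this]
  rfl

end

section

variable {k B : Type*} [Field k] [CommRing B] [Algebra k B] {n d : ℕ}

/-- Entrywise specialization of a product. -/
lemma pi_mul_apply (π : B →ₐ[k] k) (M N : Matrix (Fin d) (Fin d) B) (p q : Fin d) :
    π ((M * N) p q) = (M.map π * N.map π) p q := by
  simp [Matrix.mul_apply, map_sum, map_mul]

/-- A `B`-linear map sends vectors vanishing at `π` to vectors vanishing at `π`. -/
lemma pi_linear_zero (π : B →ₐ[k] k) {a b : Type*} [Fintype a] [Fintype b] [DecidableEq a]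
    (Y : (b → B) →ₗ[B] (a → B)) [DecidableEq b] (w : b → B) (hw : ∀ u, π (w u) = 0) (v : a) :
    π (Y w v) = 0 := by
  have h : Y w v = (LinearMap.toMatrix' Y).mulVec w v := by
    rw [LinearMap.toMatrix'_mulVec]
  rw [h]
  simp [Matrix.mulVec, dotProduct, map_sum, map_mul, hw]

end

/-- A family of matrices over `B` satisfying the structure equations, rigid at a point `π`, is
conjugate to the constant family near `π` (in the sense of an intertwiner with determinant not
vanishing at `π`). -/
theorem exists_intertwiner {k B : Type*} [Field k] [CommRing B] [Algebra k B] {n d : ℕ}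
    (γ : Fin n → Fin n → Fin n → k) (A : Fin n → Matrix (Fin d) (Fin d) B)
    (hA : ∀ i j, A i * A j = ∑ l, algebraMap k B (γ i j l) • A l)
    (π : B →ₐ[k] k) (hrig : Rigid γ (fun i => (A i).map π)) :
    ∃ g : Matrix (Fin d) (Fin d) B,
      (∀ i, A i * g = g * ((A i).map π).map (algebraMap k B)) ∧ π g.det ≠ 0 := by
  classical
  set C : Fin n → Matrix (Fin d) (Fin d) k := fun i => (A i).map π with hCdef
  set Ct : Fin n → Matrix (Fin d) (Fin d) B := fun i => (C i).map (algebraMap k B) with hCtdef
  set γB : Fin n → Fin n → Fin n → B := fun i j l => algebraMap k B (γ i j l) with hγB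
  have hCk : ∀ i j, C i * C j = ∑ l, γ i j l • C l := by
    intro i j
    ext p q
    have := congrArg (fun M => π (M p q)) (hA i j)
    simpa [hCdef, Matrix.mul_apply, Matrix.sum_apply, map_sum] using this
  have hCt : ∀ i j, Ct i * Ct j = ∑ l, γB i j l • Ct l := by
    intro i j
    ext p q
    have := congrArg (fun M => algebraMap k B (M p q)) (hCk i j)
    simp only [Matrix.mul_apply, Matrix.sum_apply, map_sum, map_mul, Matrix.smul_apply,
      smul_eq_mul] at this ⊢
    exact this
  have hπalg : ∀ y : k, π (algebraMap k B y) = y := fun y => by simp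
  have h0 : ∀ (x : Fin d × Fin d → B) (u : Fin n × (Fin d × Fin d)),
      π (D0f A Ct x u) = D0f C C (fun i => π (x i)) u := by
    intro x u
    rw [D0f_apply, D0f_apply, Matrix.sub_apply, Matrix.sub_apply, map_sub, pi_mul_apply, pi_mul_apply]
    have e1 : (cur x).map π = cur (fun i => π (x i)) := by ext p q; rfl
    have e2 : (Ct u.1).map π = C u.1 := by ext p q; simp [hCtdef]
    rw [e1, e2]
  have h1 : ∀ (f : Fin n × (Fin d × Fin d) → B) (u : Fin n × Fin n × (Fin d × Fin d)),
      π (D1f γB A Ct f u) = D1f γ C C (fun i => π (f i)) u := by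
    intro f u
    rw [D1f_apply, D1f_apply, Matrix.sub_apply, Matrix.sub_apply, Matrix.add_apply, Matrix.add_apply,
      map_sub, map_add, pi_mul_apply, pi_mul_apply]
    have e1 : ∀ i, (sl f i).map π = sl (fun i => π (f i)) i := by intro i; ext p q; rfl
    have e2 : (Ct u.2.1).map π = C u.2.1 := by ext p q; simp [hCtdef]
    rw [e1, e1, e2]
    congr 1
    simp only [Matrix.sum_apply, map_sum, Matrix.smul_apply, smul_eq_mul, map_mul, hγB, hπalg]
    exact Finset.sum_congr rfl fun l _ => by rw [← e1]; rfl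
  have hex : ∀ x, D1f γ C C x = 0 → ∃ y, D0f C C y = x := by
    intro x hx
    obtain ⟨X, hX⟩ := hrig (sl x) (by
      intro i j
      have hz : (C i * sl x j + sl x i * C j - ∑ l, γ i j l • sl x l) = 0 := by
        ext p q
        have := congrFun hx (i, j, p, q)
        rw [D1f_apply] at this
        exact this
      exact sub_eq_zero.mp hz)
    refine ⟨fun p => X p.1 p.2, ?_⟩
    funext u
    have e := congrFun (congrFun (hX u.1) u.2.1) u.2.2
    have e3 : cur (fun p : Fin d × Fin d => X p.1 p.2) = X := by ext p q; rfl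
    rw [D0f_apply, e3]
    exact e.symm
  obtain ⟨Y, s, hY, hs⟩ := exists_gen_inv π (D0f A Ct) (D1f γB A Ct) (D0f C C) (D1f γ C C)
    (D1f_D0f γB A Ct hA hCt) h0 h1 hex
  -- the vector of the identity matrix
  set one : Fin d × Fin d → B := fun p => (1 : Matrix (Fin d) (Fin d) B) p.1 p.2 with hone
  have hcone : cur one = 1 := by ext p q; rfl
  set gv : Fin d × Fin d → B := s • one - Y (D0f A Ct one) with hgv
  have hD0g : D0f A Ct gv = 0 := by
    rw [hgv, map_sub, map_smul, hY, sub_self]
  have hwz : ∀ u, π (D0f A Ct one u) = 0 := by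
    intro u
    rw [h0]
    have e1 : cur (fun i => π (one i)) = (1 : Matrix (Fin d) (Fin d) k) := by
      ext p q
      by_cases hpq : p = q
      · subst hpq; simp [cur, hone]
      · simp [cur, hone, hpq]
    rw [D0f_apply, e1]
    simp
  refine ⟨cur gv, ?_, ?_⟩
  · intro i
    have hz : A i * cur gv - cur gv * Ct i = 0 := by
      ext p q
      exact congrFun hD0g (i, p, q)
    exact sub_eq_zero.mp hz
  · have hgπ : (cur gv).map π = π s • (1 : Matrix (Fin d) (Fin d) k) := by
      ext p q
      have e := pi_linear_zero π Y (D0f A Ct one) hwz (p, q)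
      have e2 : π (gv (p, q)) = π s * π (one (p, q)) := by
        rw [hgv, Pi.sub_apply, map_sub, e, sub_zero, Pi.smul_apply, smul_eq_mul, map_mul]
      show π (gv (p, q)) = _
      rw [e2]
      by_cases hpq : p = q
      · subst hpq; simp [hone]
      · simp [hone, hpq]
    have hdet : π (cur gv).det = (π s) ^ d := by
      have := AlgHom.map_det π (cur gv)
      rw [this]
      have e : π.mapMatrix (cur gv) = π s • (1 : Matrix (Fin d) (Fin d) k) := hgπ
      rw [e, Matrix.det_smul, Matrix.det_one, mul_one, Fintype.card_fin]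
    rw [hdet]
    exact pow_ne_zero _ hs

end Vale.Agent.Lib.P195.Rig
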