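import Mathlib

namespace Vale.Agent.Lib.P195.Rig

/-- Vanishing of the first cohomology group of a representation of an algebra, in coordinates:
the algebra has structure constants `γ` in a basis indexed by `Fin n`, the representation sends
the `i`-th basis vector to the matrix `C i`, and every derivation (given by its values `f i` on the
basis) is inner. -/
def Rigid {k : Type*} [Field k] {n d : ℕ} (γ : Fin n → Fin n → Fin n → k)
    (C : Fin n → Matrix (Fin d) (Fin d) k) : Prop :=
  ∀ f : Fin n → Matrix (Fin d) (Fin d) k,
    (∀ i j, C i * f j + f i * C j = ∑ l, γ i j l • f l) →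
    ∃ X : Matrix (Fin d) (Fin d) k, ∀ i, f i = C i * X - X * C i

end Vale.Agent.Lib.P195.Rig
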