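import Vale.Agent.Lib.P195.Rig.Pigeon
import Vale.Agent.Lib.P195.Rig.Rep

namespace Vale.Agent.Lib.P195.Rig

open CategoryTheory Abelian

universe u

/-- Among infinitely many modules with a bounded number of generators and no self-extensions,
two are isomorphic. -/
theorem exists_iso_of_infinite {k : Type*} [Field k] {R : Type u} [Ring R] [Algebra k R]
    [FiniteDimensional k R] {ι : Type*} [Infinite ι] (V : ι → ModuleCat.{u} R) (B : ℕ)
    (hgen : ∀ z, ∃ f : (Fin B → R) →ₗ[R] V z, Function.Surjective f)
    (hrig : ∀ z, Subsingleton (Ext (V z) (V z) 1)) :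
    ∃ z z', z ≠ z' ∧ Nonempty (V z' ≃ₗ[R] V z) := by
  classical
  -- the `k`-structure on each module
  letI instK : ∀ z, Module k (V z) := fun z => Module.compHom (V z) (algebraMap k R)
  have instT : ∀ z, IsScalarTower k R (V z) := fun z =>
    IsScalarTower.of_algebraMap_smul (fun _ _ => rfl)
  -- finite dimension
  have hfd : ∀ z, Module.Finite k (V z) ∧ Module.finrank k (V z) ≤ B * Module.finrank k R := by
    intro z
    obtain ⟨f, hf⟩ := hgen z
    have := instT z
    let fk : (Fin B → R) →ₗ[k] V z := f.restrictScalars k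
    have hfk : Function.Surjective fk := hf
    have h1 : Module.Finite k (V z) := Module.Finite.of_surjective fk hfk
    refine ⟨h1, ?_⟩
    have h2 : Module.finrank k (V z) ≤ Module.finrank k (Fin B → R) :=
      LinearMap.finrank_le_finrank_of_surjective hfk
    have h3 : Module.finrank k (Fin B → R) = B * Module.finrank k R := by
      rw [Module.finrank_pi_fintype]
      simp
    omega
  -- pigeonhole on the dimension
  let dim : ι → Fin (B * Module.finrank k R + 1) := fun z =>
    ⟨Module.finrank k (V z), Nat.lt_succ_of_le (hfd z).2⟩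
  obtain ⟨d0, hd0⟩ := Finite.exists_infinite_fiber dim
  let ι' := {z : ι // dim z = d0}
  haveI : Infinite ι' := hd0
  have hdim : ∀ z : ι', Module.finrank k (V z.1) = d0.1 := fun z => by
    have := congrArg Fin.val z.2
    simpa [dim] using this
  let n := Module.finrank k R
  let e : Module.Basis (Fin n) k R := Module.finBasis k R
  have hb : ∀ z : ι', Nonempty (Module.Basis (Fin d0.1) k (V z.1)) := fun z => by
    have := (hfd z.1).1
    exact ⟨Module.finBasisOfFinrankEq k (V z.1) (hdim z)⟩
  let b : ∀ z : ι', Module.Basis (Fin d0.1) k (V z.1) := fun z => (hb z).some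
  let P : ι' → Fin n → Matrix (Fin d0.1) (Fin d0.1) k := fun z =>
    have := instT z.1
    rep e (b z)
  have hP : ∀ z i j, P z i * P z j = ∑ l, gam e i j l • P z l := by
    intro z i j
    have := instT z.1
    exact rep_mul e (b z) i j
  have hR : ∀ z, Rigid (gam e) (P z) := by
    intro z
    have := instT z.1
    exact rigid_of_ext e (b z) (hrig z.1)
  obtain ⟨z, z', hne, g, hg, hgi⟩ := exists_conj_of_infinite (gam e) P hP hR
  refine ⟨z.1, z'.1, fun h => hne (Subtype.ext h), ?_⟩
  have := instT z.1
  have := instT z'.1
  exact iso_of_conj e (b z) (b z') g hg hgi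

end Vale.Agent.Lib.P195.Rig
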