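import Vale.Agent.Lib.P195.Rig.Deform

namespace Vale.Agent.Lib.P195.Rig

/-- Among infinitely many rigid representations of the same dimension, two are conjugate. -/
theorem exists_conj_of_infinite {k : Type*} [Field k] {n d : ℕ} {ι : Type*} [Infinite ι]
    (γ : Fin n → Fin n → Fin n → k) (P : ι → Fin n → Matrix (Fin d) (Fin d) k)
    (hP : ∀ z i j, P z i * P z j = ∑ l, γ i j l • P z l)
    (hrig : ∀ z, Rigid γ (P z)) :
    ∃ z z', z ≠ z' ∧ ∃ g : Matrix (Fin d) (Fin d) k, IsUnit g.det ∧ ∀ i, P z i * g = g * P z' i := by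
  classical
  -- the finite set of entry functions and the finitely generated algebra `B`
  let e : Fin n × Fin d × Fin d → (ι → k) := fun t z => P z t.1 t.2.1 t.2.2
  let S : Set (ι → k) := Set.range e
  have hS : S.Finite := Set.finite_range e
  let B : Subalgebra k (ι → k) := Algebra.adjoin k S
  have hft : Algebra.FiniteType k B := by
    refine (Subalgebra.fg_iff_finiteType B).1 ?_
    exact ⟨hS.toFinset, by simp [B]⟩
  have : IsNoetherianRing B := Algebra.FiniteType.isNoetherianRing k B
  -- evaluation
  let π : ι → (B →ₐ[k] k) := fun z => (Pi.evalAlgHom k (fun _ => k) z).comp B.val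
  have hπ : ∀ z (x : B), π z x = (x : ι → k) z := fun z x => rfl
  have hsep : ∀ x y : B, (∀ z, π z x = π z y) → x = y := by
    intro x y h
    apply Subtype.ext
    funext z
    exact h z
  -- the universal matrices
  let A : Fin n → Matrix (Fin d) (Fin d) B := fun i => Matrix.of fun a b =>
    ⟨e (i, a, b), Algebra.subset_adjoin ⟨(i, a, b), rfl⟩⟩
  have hAπ : ∀ z i, (A i).map (π z) = P z i := by
    intro z i
    ext a b
    rfl
  have hA : ∀ i j, A i * A j = ∑ l, algebraMap k B (γ i j l) • A l := by
    intro i j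
    refine Matrix.ext fun a b => ?_
    apply hsep
    intro z
    have h1 : (π z) ((A i * A j) a b) = ((A i).map (π z) * (A j).map (π z)) a b := by
      rw [← Matrix.map_mul]
      rfl
    have h2 : (π z) ((∑ l, algebraMap k B (γ i j l) • A l) a b)
        = (∑ l, γ i j l • (A l).map (π z)) a b := by
      simp [Matrix.sum_apply, map_sum, Matrix.smul_apply, smul_eq_mul]
    rw [h1, h2]
    simp only [hAπ]
    rw [hP]
  -- intertwiners
  have hint : ∀ z, ∃ g : Matrix (Fin d) (Fin d) B,
      (∀ i, A i * g = g * ((A i).map (π z)).map (algebraMap k B)) ∧ (π z) g.det ≠ 0 := by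
    intro z
    refine exists_intertwiner γ A hA (π z) ?_
    have : (fun i => (A i).map (π z)) = P z := by
      funext i
      exact hAπ z i
    rw [this]
    exact hrig z
  choose g hg hdet using hint
  -- minimal primes
  have hker : ∀ z, (RingHom.ker (π z)).IsPrime := fun z => RingHom.ker_isPrime (π z)
  have hmin : ∀ z, ∃ p ∈ (⊥ : Ideal B).minimalPrimes, p ≤ RingHom.ker (π z) := by
    intro z
    have := hker z
    exact Ideal.exists_minimalPrimes_le (bot_le)
  choose p hpm hple using hmin
  have hfin : ((⊥ : Ideal B).minimalPrimes).Finite :=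
    Ideal.finite_minimalPrimes_of_isNoetherianRing B ⊥
  have : Finite ((⊥ : Ideal B).minimalPrimes) := hfin
  obtain ⟨z, z', hne, heq⟩ := Finite.exists_ne_map_eq_of_infinite
    (fun z => (⟨p z, hpm z⟩ : ((⊥ : Ideal B).minimalPrimes)))
  have hpeq : p z = p z' := congrArg Subtype.val heq
  have hprime : (p z).IsPrime := (hpm z).1.1
  have hnot : ∀ y, (g y).det ∉ p y := by
    intro y hy
    exact hdet y (hple y hy)
  have hprod : (g z).det * (g z').det ∉ p z := by
    intro hmem
    rcases hprime.mem_or_mem hmem with h | h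
    · exact hnot z h
    · exact hnot z' (hpeq ▸ h)
  have hne0 : (g z).det * (g z').det ≠ 0 := by
    intro h0
    apply hprod
    rw [h0]
    exact (p z).zero_mem
  -- a coordinate where both determinants are nonzero
  obtain ⟨w, hw⟩ : ∃ w, π w ((g z).det * (g z').det) ≠ 0 := by
    by_contra hcon
    have hall : ∀ w, π w ((g z).det * (g z').det) = π w 0 := by
      intro w
      rw [map_zero]
      by_contra hw
      exact hcon ⟨w, hw⟩
    exact hne0 (hsep _ _ hall)
  rw [map_mul] at hw
  have hdz : π w (g z).det ≠ 0 := left_ne_zero_of_mul hw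
  have hdz' : π w (g z').det ≠ 0 := right_ne_zero_of_mul hw
  let h : Matrix (Fin d) (Fin d) k := (g z).map (π w)
  let h' : Matrix (Fin d) (Fin d) k := (g z').map (π w)
  have hdeth : h.det = π w (g z).det := by
    simpa [h] using (AlgHom.map_det (π w) (g z)).symm
  have hdeth' : h'.det = π w (g z').det := by
    simpa [h'] using (AlgHom.map_det (π w) (g z')).symm
  have hspec : ∀ y (i : Fin n), P w i * (g y).map (π w) = (g y).map (π w) * P y i := by
    intro y i
    have h1 := congrArg (fun M : Matrix (Fin d) (Fin d) B => M.map (π w)) (hg y i)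
    simp only [Matrix.map_mul] at h1
    rw [hAπ, hAπ] at h1
    have h2 : ((P y i).map (algebraMap k B)).map (π w) = P y i := by
      ext a b
      simp
    rw [h2] at h1
    exact h1
  have hU : IsUnit h.det := by
    rw [hdeth]
    exact isUnit_iff_ne_zero.2 hdz
  have hU' : IsUnit h'.det := by
    rw [hdeth']
    exact isUnit_iff_ne_zero.2 hdz'
  refine ⟨z, z', hne, h⁻¹ * h', ?_, ?_⟩
  · rw [Matrix.det_mul, Matrix.det_nonsing_inv]
    have : IsUnit (Ring.inverse h.det) := by
      simpa using hU.ringInverse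
    exact this.mul hU'
  · intro i
    have h1 : P w i * h = h * P z i := hspec z i
    have h2 : P w i * h' = h' * P z' i := hspec z' i
    have hi : h⁻¹ * h = 1 := Matrix.nonsing_inv_mul h hU
    have hi' : h * h⁻¹ = 1 := Matrix.mul_nonsing_inv h hU
    calc P z i * (h⁻¹ * h') = (h⁻¹ * h) * (P z i * (h⁻¹ * h')) := by rw [hi, one_mul]
      _ = h⁻¹ * ((h * P z i) * h⁻¹) * h' := by noncomm_ring
      _ = h⁻¹ * ((P w i * h) * h⁻¹) * h' := by rw [h1]
      _ = h⁻¹ * (P w i * (h * h⁻¹)) * h' := by noncomm_ring
      _ = h⁻¹ * (P w i * h') := by rw [hi', mul_one]; noncomm_ring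
      _ = h⁻¹ * (h' * P z' i) := by rw [h2]
      _ = (h⁻¹ * h') * P z' i := by noncomm_ring

end Vale.Agent.Lib.P195.Rig
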