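import Vale.Agent.Lib.P195.Rig.Summand

namespace Vale.Agent.Lib.P195.Rig

open CategoryTheory Abelian

universe u v

variable {R : Type u} [Ring R]

/-- The syzygy `r.N a` has a direct summand generated by at most `B` elements which is not
projective. -/
def SmallSummand (r : Vale.Agent.Lib.P195.Res R) (B a : ℕ) : Prop :=
  ∃ (X : ModuleCat.{u} R) (ι : X →ₗ[R] r.N a) (p : r.N a →ₗ[R] X),
    p ∘ₗ ι = LinearMap.id ∧ (∃ f : (Fin B → R) →ₗ[R] X, Function.Surjective f) ∧
      ¬ Module.Projective R X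

/-- Isomorphic direct summands of two different syzygies are projective. -/
theorem proj_of_common_summand (r : Vale.Agent.Lib.P195.Res R) (m : ℕ)
    (hM : ∀ c, 1 ≤ c → c ≤ m → Subsingleton (Ext (r.N 0) (r.N 0) c))
    (hR : ∀ c, 1 ≤ c → c ≤ m + 1 → Subsingleton (Ext (r.N 0) (ModuleCat.of R R) c))
    {a b : ℕ} (hab : a < b) (hb : b ≤ m)
    {X Y : Type u} [AddCommGroup X] [Module R X] [AddCommGroup Y] [Module R Y]
    (ιa : X →ₗ[R] r.N a) (pa : r.N a →ₗ[R] X) (ha : pa ∘ₗ ιa = LinearMap.id)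
    (ιb : Y →ₗ[R] r.N b) (pb : r.N b →ₗ[R] Y) (hb' : pb ∘ₗ ιb = LinearMap.id)
    (e : Y ≃ₗ[R] X) : Module.Projective R Y := by
  obtain ⟨c, rfl⟩ : ∃ c, b = c + 1 := ⟨b - 1, by omega⟩
  have h1 : Subsingleton (Ext (r.N c) (r.N a) 1) :=
    r.ext_left _ c 0 (r.ext_right m hM hR a (c + (0 + 1)) (by omega) (by omega) (by omega))
  obtain ⟨g, hg⟩ := r.exists_ext_of_ext_one h1 (ιa ∘ₗ e.toLinearMap ∘ₗ pb)
  have := r.proj c
  refine Module.Projective.of_split (r.i c ∘ₗ ιb) (e.symm.toLinearMap ∘ₗ pa ∘ₗ g) ?_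
  ext y
  have h2 := LinearMap.congr_fun hg (ιb y)
  have h3 := LinearMap.congr_fun hb' y
  have h4 := LinearMap.congr_fun ha (e (pb (ιb y)))
  simp only [LinearMap.comp_apply, LinearEquiv.coe_coe, LinearMap.id_apply] at h2 h3 h4 ⊢
  rw [h2, h4, e.symm_apply_apply, h3]

/-- Over a finite set of classes of rigid modules, at most that many syzygies have a small
nonprojective summand: the classes occurring in different syzygies are different. -/
theorem small_bound_core (B : ℕ) (hfin : Finite (Quotient (rigS R B))) :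
    ∃ N : ℕ, ∀ (r : Vale.Agent.Lib.P195.Res R) (m : ℕ),
      (∀ i, 1 ≤ i → i ≤ m + 1 → Subsingleton (Ext (r.N 0) (r.N 0) i)) →
      (∀ i, 1 ≤ i → i ≤ m + 2 → Subsingleton (Ext (r.N 0) (ModuleCat.of R R) i)) →
      ∀ c : Fin (N + 1) → ℕ, Function.Injective c → (∀ z, c z ≤ m) →
        ¬ ∀ z, SmallSummand r B (c z) := by
  classical
  letI := Fintype.ofFinite (Quotient (rigS R B))
  refine ⟨Fintype.card (Quotient (rigS R B)), fun r m hM hR c hc hcm hs => ?_⟩
  choose X ι p hp hgen hnp using hs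
  choose f hf using hgen
  have hrigN : ∀ z, Subsingleton (Ext (r.N (c z)) (r.N (c z)) 1) := by
    intro z
    have hz := hcm z
    exact r.ext_left (r.N (c z)) (c z) 0
      (r.ext_right (m + 1) hM hR (c z) (c z + (0 + 1)) (by omega) (by omega) (by omega))
  have hrigX : ∀ z, Subsingleton (Ext (X z) (X z) 1) := fun z =>
    ext_self_of_retract (X := r.N (c z)) (ModuleCat.ofHom (ι z)) (ModuleCat.ofHom (p z))
      (by
        rw [← ModuleCat.ofHom_comp, hp]
        rfl) 1 (hrigN z)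
  let qe : ∀ z, ((Fin B → R) ⧸ LinearMap.ker (f z)) ≃ₗ[R] X z := fun z =>
    (f z).quotKerEquivOfSurjective (hf z)
  have hK : ∀ z, Subsingleton (Ext (ModuleCat.of R ((Fin B → R) ⧸ LinearMap.ker (f z)))
      (ModuleCat.of R ((Fin B → R) ⧸ LinearMap.ker (f z))) 1) := fun z =>
    ext_self_of_iso (qe z).symm.toModuleIso 1 (hrigX z)
  let cl : Fin (Fintype.card (Quotient (rigS R B)) + 1) → Quotient (rigS R B) := fun z =>
    Quotient.mk _ ⟨LinearMap.ker (f z), hK z⟩
  obtain ⟨z, z', hne, hz⟩ := Fintype.exists_ne_map_eq_of_card_lt cl (by simp)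
  obtain ⟨ε⟩ := Quotient.exact hz
  let e : X z ≃ₗ[R] X z' := (qe z).symm.trans (ε.trans (qe z'))
  have hne' : c z ≠ c z' := fun h => hne (hc h)
  have hzm := hcm z
  have hzm' := hcm z'
  rcases lt_or_gt_of_ne hne' with h | h
  · exact hnp z' (proj_of_common_summand r (m + 1) hM hR h (by omega) (ι z) (p z) (hp z)
      (ι z') (p z') (hp z') e.symm)
  · exact hnp z (proj_of_common_summand r (m + 1) hM hR h (by omega) (ι z') (p z') (hp z')
      (ι z) (p z) (hp z) e)

/-- Eventual form: when all the vanishing holds, only finitely many syzygies have a small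
nonprojective summand. -/
theorem small_eventually_core (B : ℕ) (hfin : Finite (Quotient (rigS R B)))
    (r : Vale.Agent.Lib.P195.Res R)
    (hM : ∀ i : ℕ, 1 ≤ i → Subsingleton (Ext (r.N 0) (r.N 0) i))
    (hR : ∀ i : ℕ, 1 ≤ i → Subsingleton (Ext (r.N 0) (ModuleCat.of R R) i)) :
    ∃ a₀ : ℕ, ∀ a, a₀ ≤ a → ¬ SmallSummand r B a := by
  classical
  obtain ⟨N, hN⟩ := small_bound_core B hfin
  by_contra hcon
  push_neg at hcon
  have hS : {a | SmallSummand r B a}.Infinite := by
    refine Set.infinite_of_not_bddAbove ?_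
    rintro ⟨m, hm⟩
    obtain ⟨a, ha, hs⟩ := hcon (m + 1)
    have := hm hs
    omega
  let em := hS.natEmbedding
  let c : Fin (N + 1) → ℕ := fun z => (em z : ℕ)
  have hc : Function.Injective c := fun z z' h =>
    Fin.ext (em.injective (Subtype.ext h))
  let m : ℕ := Finset.univ.sup c
  exact hN r m (fun i h _ => hM i h) (fun i h _ => hR i h) c hc
    (fun z => Finset.le_sup (f := c) (Finset.mem_univ z)) (fun z => (em z).2)

end Vale.Agent.Lib.P195.Rig
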