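import Vale.Agent.Lib.P195.Rig.Uniform

namespace Vale.Agent.Lib.P195.Rig

open CategoryTheory Abelian

universe u v

section Core

variable {R : Type u} [Ring R]

/-- A retract of a module without self-extensions has no self-extensions. -/
lemma ext_self_of_retract {X Y : ModuleCat.{u} R} (inc : Y ⟶ X) (pr : X ⟶ Y) (h : inc ≫ pr = 𝟙 Y)
    (n : ℕ) (hX : Subsingleton (Ext X X n)) : Subsingleton (Ext Y Y n) := by
  have hy : ∀ y : Ext Y X n, y = 0 := by
    intro y
    have e : ((Ext.mk₀ inc).comp (Ext.mk₀ pr) (add_zero 0)).comp y (zero_add n) = y := by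
      rw [Ext.mk₀_comp_mk₀, h, Ext.mk₀_id_comp]
    have e2 : (Ext.mk₀ pr).comp y (zero_add n) = 0 := Subsingleton.elim _ _
    rw [← e, Ext.comp_assoc_of_second_deg_zero, e2, Ext.comp_zero]
  refine ⟨fun a b => ?_⟩
  have key : ∀ x : Ext Y Y n, x = 0 := by
    intro x
    have hid : 𝟙 Y = inc ≫ pr := h.symm
    rw [← Ext.comp_mk₀_id x, hid, ← Ext.mk₀_comp_mk₀, ← Ext.comp_assoc_of_third_deg_zero,
      hy (x.comp (Ext.mk₀ inc) (add_zero n)), Ext.zero_comp]
  rw [key a, key b]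

/-- If the identity of a syzygy is a sum of maps factoring through earlier syzygies, the module
is projective. -/
theorem proj_of_sum (r : Vale.Agent.Lib.P195.Res R)
    (hM : ∀ i : ℕ, 1 ≤ i → Subsingleton (Ext (r.N 0) (r.N 0) i))
    (hR : ∀ i : ℕ, 1 ≤ i → Subsingleton (Ext (r.N 0) (ModuleCat.of R R) i))
    {c : ℕ} (hc : 1 ≤ c) {s : ℕ} (b : Fin s → ℕ) (hb : ∀ i, b i < c)
    (f : ∀ i, r.N c →ₗ[R] r.N (b i)) (u : ∀ i, r.N (b i) →ₗ[R] r.N c)
    (hid : ∑ i, (u i) ∘ₗ (f i) = LinearMap.id) : Module.Projective R (r.N 0) := by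
  obtain ⟨c, rfl⟩ : ∃ c', c = c' + 1 := ⟨c - 1, by omega⟩
  have hvan : ∀ b' : ℕ, b' ≤ c → Subsingleton (Ext (r.N c) (r.N b') 1) := fun b' h =>
    r.ext_left _ c 0 (r.ext_right (c + 1) (fun i h1 _ => hM i h1) (fun i h1 _ => hR i h1) b'
      (c + (0 + 1)) (by omega) (by omega) (by omega))
  choose g hg using fun i => r.exists_ext_of_ext_one (hvan (b i) (by have := hb i; omega)) (f i)
  have hl : (∑ i, (u i) ∘ₗ (g i)) ∘ₗ r.i c = LinearMap.id := by
    rw [← hid]
    ext x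
    simp only [LinearMap.comp_apply, LinearMap.sum_apply]
    refine Finset.sum_congr rfl fun i _ => ?_
    rw [← hg i]
    rfl
  have tfae := (r.exact c).split_tfae (r.inj c) (r.surj c)
  have hl' : ∃ l, l ∘ₗ r.i c = LinearMap.id := ⟨_, hl⟩
  obtain ⟨t, ht⟩ := (tfae.out 1 0).mp hl'
  have := r.proj c
  have h4 : Module.Projective R (r.N c) := Module.Projective.of_split t (r.π c) ht
  have desc : ∀ a : ℕ, Module.Projective R (r.N (a + 1)) → Module.Projective R (r.N a) := by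
    intro a hP
    have := hP
    have := r.finN (a + 1)
    have h5 : Subsingleton (Ext (r.N a) (ModuleCat.of R R) (0 + 1)) :=
      r.ext_left _ a 0 (hR (a + (0 + 1)) (by omega))
    exact proj_of_ext_one r a (ext_subsingleton_proj (r.N a) (r.N (a + 1)) 1 h5)
  have down : ∀ c' : ℕ, Module.Projective R (r.N c') → Module.Projective R (r.N 0) := by
    intro c'
    induction c' with
    | zero => exact id
    | succ c' ih => exact fun h => ih (desc c' h)
  exact down c h4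

variable (R) in
/-- Quotients of the free module of rank `B` with no self-extensions. -/
def RigQ (B : ℕ) : Type u :=
  {K : Submodule R (Fin B → R) //
    Subsingleton (Ext (ModuleCat.of R ((Fin B → R) ⧸ K)) (ModuleCat.of R ((Fin B → R) ⧸ K)) 1)}

variable (R) in
/-- Isomorphism of such quotients. -/
def rigS (B : ℕ) : Setoid (RigQ R B) where
  r K K' := Nonempty (((Fin B → R) ⧸ K.1) ≃ₗ[R] ((Fin B → R) ⧸ K'.1))
  iseqv := ⟨fun _ => ⟨LinearEquiv.refl _ _⟩, fun ⟨e⟩ => ⟨e.symm⟩, fun ⟨e⟩ ⟨e'⟩ => ⟨e.trans e'⟩⟩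

/-- The main argument: finitely many classes, and infinitely many syzygies which are direct sums of
modules with at most `B` generators. -/
theorem ar_of_summands_core (B : ℕ) (hfin : Finite (Quotient (rigS R B)))
    (r : Vale.Agent.Lib.P195.Res R)
    (hM : ∀ i : ℕ, 1 ≤ i → Subsingleton (Ext (r.N 0) (r.N 0) i))
    (hR : ∀ i : ℕ, 1 ≤ i → Subsingleton (Ext (r.N 0) (ModuleCat.of R R) i))
    (hB : ∀ a₀ : ℕ, ∃ a, a₀ ≤ a ∧ ∃ (s : ℕ) (Y : Fin s → ModuleCat.{u} R),
      (∀ i, ∃ f : (Fin B → R) →ₗ[R] Y i, Function.Surjective f) ∧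
      Nonempty (r.N a ≃ₗ[R] ∀ i, Y i)) :
    Module.Projective R (r.N 0) := by
  classical
  have hrigN : ∀ a, Subsingleton (Ext (r.N a) (r.N a) 1) := fun a =>
    r.ext_left (r.N a) a 0 (r.ext_right (a + 1) (fun i h1 _ => hM i h1) (fun i h1 _ => hR i h1) a
      (a + (0 + 1)) (by omega) (by omega) (by omega))
  let Good : ℕ → Prop := fun a => ∃ (s : ℕ) (Y : Fin s → ModuleCat.{u} R),
      (∀ i, ∃ f : (Fin B → R) →ₗ[R] Y i, Function.Surjective f) ∧
      Nonempty (r.N a ≃ₗ[R] ∀ i, Y i)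
  choose s Y hgen he using fun a : {a // Good a} => a.2
  choose f hf using hgen
  let e : ∀ a : {a // Good a}, r.N a.1 ≃ₗ[R] ∀ i, Y a i := fun a => (he a).some
  let inc : ∀ (a : {a // Good a}) (i : Fin (s a)), Y a i →ₗ[R] r.N a.1 := fun a i =>
    (e a).symm.toLinearMap ∘ₗ LinearMap.single R (fun i => Y a i) i
  let pr : ∀ (a : {a // Good a}) (i : Fin (s a)), r.N a.1 →ₗ[R] Y a i := fun a i =>
    LinearMap.proj i ∘ₗ (e a).toLinearMap
  have pr_inc : ∀ a i, pr a i ∘ₗ inc a i = LinearMap.id := by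
    intro a i
    ext x
    simp [pr, inc]
  have sum_inc : ∀ a, ∑ i, inc a i ∘ₗ pr a i = LinearMap.id := by
    intro a
    ext x
    apply (e a).injective
    simp only [LinearMap.sum_apply, LinearMap.comp_apply, map_sum, inc, pr, LinearEquiv.coe_coe,
      LinearEquiv.apply_symm_apply, LinearMap.id_apply, LinearMap.proj_apply,
      LinearMap.single_apply]
    exact Finset.univ_sum_single _
  have hrigY : ∀ a i, Subsingleton (Ext (Y a i) (Y a i) 1) := fun a i =>
    ext_self_of_retract (X := r.N a.1) (ModuleCat.ofHom (inc a i)) (ModuleCat.ofHom (pr a i))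
      (by
        rw [← ModuleCat.ofHom_comp, pr_inc]
        rfl) 1 (hrigN a.1)
  let qe : ∀ a i, ((Fin B → R) ⧸ LinearMap.ker (f a i)) ≃ₗ[R] Y a i := fun a i =>
    (f a i).quotKerEquivOfSurjective (hf a i)
  have hK : ∀ a i, Subsingleton (Ext (ModuleCat.of R ((Fin B → R) ⧸ LinearMap.ker (f a i)))
      (ModuleCat.of R ((Fin B → R) ⧸ LinearMap.ker (f a i))) 1) := fun a i =>
    ext_self_of_iso (qe a i).symm.toModuleIso 1 (hrigY a i)
  let cl : (Σ a : {a // Good a}, Fin (s a)) → Quotient (rigS R B) := fun x =>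
    Quotient.mk _ ⟨LinearMap.ker (f x.1 x.2), hK x.1 x.2⟩
  have hfinR : Finite (Set.range cl) := Subtype.finite
  letI := Fintype.ofFinite (Set.range cl)
  let g : Set.range cl → (Σ a : {a // Good a}, Fin (s a)) := fun q => Classical.choose q.2
  have hg : ∀ q : Set.range cl, cl (g q) = q.1 := fun q => Classical.choose_spec q.2
  let c₀ : ℕ := Finset.univ.sup fun q : Set.range cl => ((g q).1.1 : ℕ)
  obtain ⟨c, hc, hgood⟩ := hB (c₀ + 1)
  let cc : {a // Good a} := ⟨c, hgood⟩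
  let y : Fin (s cc) → (Σ a : {a // Good a}, Fin (s a)) := fun i =>
    g ⟨cl ⟨cc, i⟩, ⟨_, rfl⟩⟩
  have hy : ∀ i, cl (y i) = cl ⟨cc, i⟩ := fun i => hg ⟨cl ⟨cc, i⟩, ⟨_, rfl⟩⟩
  have hyb : ∀ i, (y i).1.1 < c := by
    intro i
    have h1 : ((y i).1.1 : ℕ) ≤ c₀ :=
      Finset.le_sup (f := fun q : Set.range cl => ((g q).1.1 : ℕ))
        (Finset.mem_univ (⟨cl ⟨cc, i⟩, ⟨_, rfl⟩⟩ : Set.range cl))
    omega
  have hε : ∀ i, Nonempty (((Fin B → R) ⧸ LinearMap.ker (f (y i).1 (y i).2)) ≃ₗ[R]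
      ((Fin B → R) ⧸ LinearMap.ker (f cc i))) := fun i => Quotient.exact (hy i)
  let δ : ∀ i, Y (y i).1 (y i).2 ≃ₗ[R] Y cc i := fun i =>
    (qe (y i).1 (y i).2).symm.trans ((hε i).some.trans (qe cc i))
  refine proj_of_sum r hM hR (c := c) (by omega) (s := s cc) (fun i => (y i).1.1) hyb
    (fun i => inc (y i).1 (y i).2 ∘ₗ (δ i).symm.toLinearMap ∘ₗ pr cc i)
    (fun i => inc cc i ∘ₗ (δ i).toLinearMap ∘ₗ pr (y i).1 (y i).2) ?_
  have hterm : ∀ i, (inc cc i ∘ₗ (δ i).toLinearMap ∘ₗ pr (y i).1 (y i).2) ∘ₗ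
      (inc (y i).1 (y i).2 ∘ₗ (δ i).symm.toLinearMap ∘ₗ pr cc i) = inc cc i ∘ₗ pr cc i := by
    intro i
    ext x
    have h2 := LinearMap.congr_fun (pr_inc (y i).1 (y i).2) ((δ i).symm (pr cc i x))
    simp only [LinearMap.comp_apply, LinearMap.id_apply] at h2
    simp only [LinearMap.comp_apply, LinearEquiv.coe_coe, h2, LinearEquiv.apply_symm_apply]
  rw [Finset.sum_congr rfl fun i _ => hterm i]
  exact sum_inc cc

end Core

/-- The classes of rigid modules with at most `B` generators are finite in number, over a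
finite-dimensional algebra over a field. -/
theorem finite_rigS (k : Type v) [Field k] (R : Type u) [Ring R] [Algebra k R]
    [FiniteDimensional k R] (B : ℕ) : Finite (Quotient (rigS R B)) := by
  classical
  letI : Setoid (RigQ R B) := rigS R B
  by_contra hinf
  rw [not_finite_iff_infinite] at hinf
  obtain ⟨q, q', hne, ⟨e⟩⟩ := exists_iso_of_infinite (k := k)
    (fun q : Quotient (rigS R B) => ModuleCat.of R ((Fin B → R) ⧸ q.out.1)) B
    (fun q => ⟨(q.out.1).mkQ, Submodule.mkQ_surjective _⟩) (fun q => q.out.2)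
  have h : q'.out ≈ q.out := ⟨e⟩
  exact hne (Quotient.out_equiv_out.mp h).symm

/-- The conjecture, over a finite-dimensional algebra over a field, for modules with infinitely many
syzygies which are direct sums of modules generated by at most `B` elements. -/
theorem ar_of_summands {k : Type v} [Field k] {R : Type u} [Ring R] [Algebra k R]
    [FiniteDimensional k R] (r : Vale.Agent.Lib.P195.Res R)
    (hM : ∀ i : ℕ, 1 ≤ i → Subsingleton (Ext (r.N 0) (r.N 0) i))
    (hR : ∀ i : ℕ, 1 ≤ i → Subsingleton (Ext (r.N 0) (ModuleCat.of R R) i))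
    (B : ℕ) (hB : ∀ a₀ : ℕ, ∃ a, a₀ ≤ a ∧ ∃ (s : ℕ) (Y : Fin s → ModuleCat.{u} R),
      (∀ i, ∃ f : (Fin B → R) →ₗ[R] Y i, Function.Surjective f) ∧
      Nonempty (r.N a ≃ₗ[R] ∀ i, Y i)) :
    Module.Projective R (r.N 0) :=
  ar_of_summands_core B (finite_rigS k R B) r hM hR hB

/-- The same over a finite ring. -/
theorem ar_of_summands_finite {R : Type u} [Ring R] [Finite R] (r : Vale.Agent.Lib.P195.Res R)
    (hM : ∀ i : ℕ, 1 ≤ i → Subsingleton (Ext (r.N 0) (r.N 0) i))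
    (hR : ∀ i : ℕ, 1 ≤ i → Subsingleton (Ext (r.N 0) (ModuleCat.of R R) i))
    (B : ℕ) (hB : ∀ a₀ : ℕ, ∃ a, a₀ ≤ a ∧ ∃ (s : ℕ) (Y : Fin s → ModuleCat.{u} R),
      (∀ i, ∃ f : (Fin B → R) →ₗ[R] Y i, Function.Surjective f) ∧
      Nonempty (r.N a ≃ₗ[R] ∀ i, Y i)) :
    Module.Projective R (r.N 0) := by
  have hsub : Finite (Submodule R (Fin B → R)) :=
    Finite.of_injective (fun K => (K : Set (Fin B → R))) SetLike.coe_injective
  have h2 : Finite (RigQ R B) := Subtype.finite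
  have h3 : Finite (Quotient (rigS R B)) := Quotient.finite _
  exact ar_of_summands_core B h3 r hM hR hB

end Vale.Agent.Lib.P195.Rig
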