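import Vale.Agent.Lib.P195.Rig.AR

namespace Vale.Agent.Lib.P195.Rig

open CategoryTheory Abelian

universe u v

/-- Vanishing of self-extensions is invariant under isomorphism. -/
lemma ext_self_of_iso {R : Type u} [Ring R] {X Y : ModuleCat.{u} R} (i : X ≅ Y) (n : ℕ)
    (h : Subsingleton (Ext X X n)) : Subsingleton (Ext Y Y n) := by
  haveI h1 : Subsingleton (Ext X Y n) := ext_subsingleton_of_iso i n h
  refine ⟨fun a b => ?_⟩
  have key : ∀ x : Ext Y Y n, x = 0 := by
    intro x
    have e : ((Ext.mk₀ i.inv).comp (Ext.mk₀ i.hom) (add_zero 0)).comp x (zero_add n) = x := by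
      rw [Ext.mk₀_comp_mk₀, i.inv_hom_id, Ext.mk₀_id_comp]
    have e2 : (Ext.mk₀ i.hom).comp x (zero_add n) = 0 := Subsingleton.elim _ _
    rw [← e, Ext.comp_assoc_of_second_deg_zero, e2, Ext.comp_zero]
  rw [key a, key b]

/-- Two isomorphic syzygies force projectivity, given vanishing in a finite range. -/
theorem proj_of_iso_range {R : Type u} [Ring R] (r : Vale.Agent.Lib.P195.Res R) (m : ℕ)
    (hM : ∀ c, 1 ≤ c → c ≤ m → Subsingleton (Ext (r.N 0) (r.N 0) c))
    (hR : ∀ c, 1 ≤ c → c ≤ m + 1 → Subsingleton (Ext (r.N 0) (ModuleCat.of R R) c))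
    {a b : ℕ} (hab : a < b) (hb : b ≤ m) (e : r.N a ≃ₗ[R] r.N b) :
    Module.Projective R (r.N 0) := by
  obtain ⟨c, rfl⟩ : ∃ c, b = c + 1 := ⟨b - 1, by omega⟩
  have h1 : Subsingleton (Ext (r.N 0) (r.N a) (c + (0 + 1))) :=
    r.ext_right m hM hR a _ (by omega) (by omega) (by omega)
  have h2 : Subsingleton (Ext (r.N 0) (r.N (c + 1)) (c + (0 + 1))) :=
    ext_subsingleton_of_iso e.toModuleIso _ h1
  have h3 : Subsingleton (Ext (r.N c) (r.N (c + 1)) 1) := r.ext_left _ c 0 h2
  have h4 : Module.Projective R (r.N c) := proj_of_ext_one r c h3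
  have desc : ∀ a' : ℕ, a' + 1 ≤ m → Module.Projective R (r.N (a' + 1)) →
      Module.Projective R (r.N a') := by
    intro a' ha' hP
    have := hP
    have := r.finN (a' + 1)
    have h5 : Subsingleton (Ext (r.N a') (ModuleCat.of R R) (0 + 1)) :=
      r.ext_left _ a' 0 (hR (a' + (0 + 1)) (by omega) (by omega))
    exact proj_of_ext_one r a' (ext_subsingleton_proj (r.N a') (r.N (a' + 1)) 1 h5)
  have down : ∀ c' : ℕ, c' ≤ m → Module.Projective R (r.N c') → Module.Projective R (r.N 0) := by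
    intro c'
    induction c' with
    | zero => exact fun _ => id
    | succ c' ih => exact fun hc h => ih (by omega) (desc c' hc h)
  exact down c (by omega) h4

/-- Finiteness of the rigid modules with a bounded number of generators, in pigeonhole form. -/
theorem exists_bound_rigid (k : Type v) [Field k] (R : Type u) [Ring R] [Algebra k R]
    [FiniteDimensional k R] (B : ℕ) :
    ∃ N : ℕ, ∀ V : Fin (N + 1) → ModuleCat.{u} R,
      (∀ z, ∃ f : (Fin B → R) →ₗ[R] V z, Function.Surjective f) →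
      (∀ z, Subsingleton (Ext (V z) (V z) 1)) →
      ∃ z z', z ≠ z' ∧ Nonempty (V z' ≃ₗ[R] V z) := by
  classical
  let T := Fin B → R
  let Q := {K : Submodule R T //
    Subsingleton (Ext (ModuleCat.of R (T ⧸ K)) (ModuleCat.of R (T ⧸ K)) 1)}
  let s : Setoid Q :=
    { r := fun K K' => Nonempty ((T ⧸ K.1) ≃ₗ[R] (T ⧸ K'.1))
      iseqv := ⟨fun _ => ⟨LinearEquiv.refl _ _⟩, fun ⟨e⟩ => ⟨e.symm⟩, fun ⟨e⟩ ⟨e'⟩ => ⟨e.trans e'⟩⟩ }
  have hfin : Finite (Quotient s) := by
    by_contra hinf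
    rw [not_finite_iff_infinite] at hinf
    obtain ⟨q, q', hne, ⟨e⟩⟩ := exists_iso_of_infinite (k := k)
      (fun q : Quotient s => ModuleCat.of R (T ⧸ q.out.1)) B
      (fun q => ⟨(q.out.1).mkQ, Submodule.mkQ_surjective _⟩) (fun q => q.out.2)
    have h : q'.out ≈ q.out := ⟨e⟩
    exact hne (Quotient.out_equiv_out.mp h).symm
  letI := Fintype.ofFinite (Quotient s)
  refine ⟨Fintype.card (Quotient s), fun V hgen hrig => ?_⟩
  choose f hf using hgen
  have hK : ∀ z, Subsingleton (Ext (ModuleCat.of R (T ⧸ LinearMap.ker (f z)))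
      (ModuleCat.of R (T ⧸ LinearMap.ker (f z))) 1) := by
    intro z
    exact ext_self_of_iso ((f z).quotKerEquivOfSurjective (hf z)).symm.toModuleIso 1 (hrig z)
  let cl : Fin (Fintype.card (Quotient s) + 1) → Quotient s := fun z => ⟦⟨LinearMap.ker (f z), hK z⟩⟧
  obtain ⟨z, z', hne, hz⟩ := Fintype.exists_ne_map_eq_of_card_lt cl (by simp)
  obtain ⟨e⟩ := Quotient.exact hz
  exact ⟨z, z', hne, ⟨((f z').quotKerEquivOfSurjective (hf z')).symm.trans
    (e.symm.trans ((f z).quotKerEquivOfSurjective (hf z)))⟩⟩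

/-- Uniform finite range form: given the algebra and `B` there is `N` such that vanishing up to a
degree `m + 1` and `N + 1` syzygies among the first `m + 1` generated by at most `B` elements force
projectivity. -/
theorem ar_uniform (k : Type v) [Field k] (R : Type u) [Ring R] [Algebra k R]
    [FiniteDimensional k R] (B : ℕ) :
    ∃ N : ℕ, ∀ (r : Vale.Agent.Lib.P195.Res R) (m : ℕ),
      (∀ i, 1 ≤ i → i ≤ m + 1 → Subsingleton (Ext (r.N 0) (r.N 0) i)) →
      (∀ i, 1 ≤ i → i ≤ m + 2 → Subsingleton (Ext (r.N 0) (ModuleCat.of R R) i)) →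
      ∀ c : Fin (N + 1) → ℕ, Function.Injective c → (∀ z, c z ≤ m) →
      (∀ z, ∃ f : (Fin B → R) →ₗ[R] r.N (c z), Function.Surjective f) →
      Module.Projective R (r.N 0) := by
  obtain ⟨N, hN⟩ := exists_bound_rigid k R B
  refine ⟨N, fun r m hM hR c hc hcm hgen => ?_⟩
  have hrig : ∀ z, Subsingleton (Ext (r.N (c z)) (r.N (c z)) 1) := by
    intro z
    have hz := hcm z
    exact r.ext_left (r.N (c z)) (c z) 0
      (r.ext_right (m + 1) hM hR (c z) (c z + (0 + 1)) (by omega) (by omega) (by omega))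
  obtain ⟨z, z', hne, ⟨e⟩⟩ := hN (fun z => r.N (c z)) hgen hrig
  have hne' : c z ≠ c z' := fun h => hne (hc h)
  have hz := hcm z
  have hz' := hcm z'
  rcases lt_or_gt_of_ne hne' with h | h
  · exact proj_of_iso_range r (m + 1) hM hR h (by omega) e.symm
  · exact proj_of_iso_range r (m + 1) hM hR h (by omega) e

/-- The conjecture for bounded syzygies over a finite ring: no rigidity is needed for the
pigeonhole. -/
theorem ar_of_bounded_finite {R : Type u} [Ring R] [Finite R] (r : Vale.Agent.Lib.P195.Res R)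
    (hM : ∀ i : ℕ, 1 ≤ i → Subsingleton (Ext (r.N 0) (r.N 0) i))
    (hR : ∀ i : ℕ, 1 ≤ i → Subsingleton (Ext (r.N 0) (ModuleCat.of R R) i))
    (B : ℕ) (hB : ∀ a₀, ∃ a, a₀ ≤ a ∧ ∃ f : (Fin B → R) →ₗ[R] r.N a, Function.Surjective f) :
    Module.Projective R (r.N 0) := by
  classical
  let S : Set ℕ := {a | ∃ f : (Fin B → R) →ₗ[R] r.N a, Function.Surjective f}
  have hS : S.Infinite := by
    refine Set.infinite_of_not_bddAbove ?_
    rintro ⟨m, hm⟩
    obtain ⟨a, ha, hf⟩ := hB (m + 1)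
    have := hm hf
    omega
  have : Infinite S := hS.to_subtype
  have hsub : Finite (Submodule R (Fin B → R)) :=
    Finite.of_injective (fun K => (K : Set (Fin B → R))) SetLike.coe_injective
  choose f hf using fun z : S => z.2
  obtain ⟨z, z', hne, hz⟩ := Finite.exists_ne_map_eq_of_infinite fun z : S => LinearMap.ker (f z)
  have e : r.N z.1 ≃ₗ[R] r.N z'.1 :=
    ((f z).quotKerEquivOfSurjective (hf z)).symm.trans
      ((Submodule.quotEquivOfEq _ _ hz).trans ((f z').quotKerEquivOfSurjective (hf z')))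
  have hne' : z.1 ≠ z'.1 := fun h => hne (Subtype.ext h)
  rcases lt_or_gt_of_ne hne' with h | h
  · exact proj_of_iso_range r z'.1 (fun i h1 _ => hM i h1) (fun i h1 _ => hR i h1) h le_rfl e
  · exact proj_of_iso_range r z.1 (fun i h1 _ => hM i h1) (fun i h1 _ => hR i h1) h le_rfl e.symm

end Vale.Agent.Lib.P195.Rig
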